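import Vale.Agent.P258.R2.H863.Homs5

set_option linter.all false

namespace Vale.Agent.P258.R2.H863

open Vale.Agent.P258

/-- The homomorphisms `ρ` from the group of the knot with the diagram `D` to the symmetric group on
`m` letters (`m = 4` or `5`) which take the meridian of the arc `k` to an element of order four
(a 4-cycle) and the preferred longitude to the square of the meridian. -/
def Reps (m : ℕ) (D : Diagram) (k : Fin D.n) : Set (Fin D.n → Equiv.Perm (Fin m)) :=
  {ρ | IsHom D ρ ∧ (ρ k ^ 4 = 1 ∧ ρ k ^ 2 ≠ 1) ∧ lon D ρ k = ρ k ^ 2}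

/-- No homomorphism from the knot group to `S₅` takes the meridian to an odd permutation `x` of
order not dividing four (so of order six) and the longitude to `x ^ 2` or `x ^ (-2)`. -/
def NoOrderSix (D : Diagram) (k : Fin D.n) : Prop :=
  ∀ ρ : Fin D.n → Equiv.Perm (Fin 5), IsHom D ρ → Equiv.Perm.sign (ρ k) = -1 → ρ k ^ 4 ≠ 1 →
    lon D ρ k ≠ ρ k ^ 2 ∧ lon D ρ k ≠ (ρ k ^ 2)⁻¹

/-- The fundamental group of the surgery with slope `p / q` on the knot with the diagram `D`. -/
abbrev SurgeryGroup (D : Diagram) (k : Fin D.n) (p q : ℤ) : Type :=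
  PresentedGroup (surgeryRelators D ∅ 1 0 k p q)

theorem isHom_iff {G : Type} [Group G] (D : Diagram) (ρ : Fin D.n → G) :
    IsHom D ρ ↔ D.IsCol ρ :=
  ⟨fun h i => (D.lift_wirtinger _ i).1 (h i), fun h i => (D.lift_wirtinger _ i).2 (h i)⟩

theorem lon_eq {G : Type} [Group G] (D : Diagram) (ρ : Fin D.n → G) (k : Fin D.n) :
    lon D ρ k = D.lonVal ρ k := D.lift_longitude ρ k

theorem reps_four (D : Diagram) (k : Fin D.n) : Reps 4 D k = X D k := by
  ext ρ
  simp only [Reps, X, Set.mem_setOf_eq, isHom_iff, lon_eq, Is4]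

theorem reps_five (D : Diagram) (k : Fin D.n) : Reps 5 D k = Five.X D k := by
  ext ρ
  simp only [Reps, Five.X, Set.mem_setOf_eq, isHom_iff, lon_eq, Is45]

theorem noSix (D : Diagram) (k : Fin D.n) (h : NoOrderSix D k) : Five.NoSix D k := by
  intro ρ h1 h2 h3
  have := h ρ ((isHom_iff D ρ).2 h1) h2 h3
  rwa [lon_eq] at this

theorem final (hcover : SpecCover) (hcover5 : SpecCover5) (hfree : SpecFree) (hcent : SpecCent)
    (hcent5 : SpecCent5) (hcount : SpecCount) :
    (∀ D : Diagram, D.IsKnot → ∀ k : Fin D.n,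
      120 ∣ Nat.card (Reps 5 D k) ∧
      (¬ 240 ∣ Nat.card (Reps 5 D k) → NoOrderSix D k →
        IsEmpty (SurgeryGroup D k 2 1 ≃* SurgeryGroup D k (-2) 1) ∧
        SeparatesKnotClass 120 D k 2 1 (-2) 1)) ∧
    (∀ D : Diagram, D.IsKnot → ∀ k : Fin D.n,
      24 ∣ Nat.card (Reps 4 D k) ∧
      (¬ 48 ∣ Nat.card (Reps 4 D k) → ∀ p q p' q' : ℤ, p % 4 = 2 → q % 2 = 1 →
        p' % 4 = 2 → q' % 2 = 1 → (p + 2 * q - p' - 2 * q') % 8 = 4 →
        IsEmpty (SurgeryGroup D k p q ≃* SurgeryGroup D k p' q') ∧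
        SeparatesKnotClass 24 D k p q p' q')) := by
  refine ⟨fun D hD k => ⟨?_, fun h hno => ⟨?_, ?_⟩⟩, fun D hD k => ⟨?_, fun h p q p' q' hp hq hp' hq'
    hdiff => ⟨?_, ?_⟩⟩⟩
  · rw [reps_five]
    obtain ⟨G, _, _, ⟨c⟩⟩ := hcover5
    exact Five.dvd_X c D hfree hcent5 hD k
  · rw [reps_five] at h
    exact Five.iso_obstruction hcover5 hfree hcent5 D hD k (noSix D k hno) h
  · rw [reps_five] at h
    exact Five.class_obstruction hcover5 hfree hcent5 hcount D hD k (noSix D k hno) h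
  · rw [reps_four]
    obtain ⟨G, _, _, ⟨c⟩⟩ := hcover
    exact dvd_X c D hfree hcent hD k
  · rw [reps_four] at h
    exact iso_obstruction hcover hfree hcent D hD k h p q p' q' hq hp hq' hp' hdiff
  · rw [reps_four] at h
    exact class_obstruction hcover hfree hcent hcount D hD k h p q p' q' hq hp hq' hp' hdiff

end Vale.Agent.P258.R2.H863
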