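import Vale.Agent.P258.R2.H863.Main

set_option linter.all false

/-!
The criterion for satellites restricted to homomorphisms on which a given character of the finite
group is non-trivial.
-/

namespace Vale.Agent.P258.R2.H863

open Vale.Agent.P258

theorem col_same {A : Type*} [CommGroup A] (D : Diagram) {χ : Fin D.n → A} (h : D.IsCol χ)
    {a b : Fin D.n} (hab : D.SameComponent a b) : χ b = χ a := by
  obtain ⟨i, rfl⟩ := hab
  induction i with
  | zero => rfl
  | succ i ih =>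
    rw [Function.iterate_succ_apply', h, ← ih, mul_comm (χ (D.above _) ^ _) (χ _), mul_assoc,
      ← zpow_add]
    simp

/-- The longitude of `e` has trivial value in a commutative group if the other component has. -/
theorem lon_one {A : Type*} [CommGroup A] (P : Diagram) {χ : Fin P.n → A} (h : P.IsCol χ)
    (k e : Fin P.n) (hP : ∀ i, P.SameComponent k i ∨ P.SameComponent e i) (hk : χ k = 1) :
    P.lonVal χ e = 1 := by
  unfold Diagram.lonVal Diagram.selfWrithe
  have key : ∀ l : List (Fin P.n), (l.map fun b => χ (P.above b) ^ (P.sgn b : ℤ)).prod =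
      χ e ^ (((l.filter fun b => @decide (P.SameComponent e (P.above b))
        (Classical.propDecidable _)).map fun b => (P.sgn b : ℤ)).sum) := by
    intro l
    induction l with
    | nil => simp
    | cons b l ih =>
      rw [List.map_cons, List.prod_cons, ih]
      by_cases hb : P.SameComponent e (P.above b)
      · rw [List.filter_cons_of_pos (by simpa using hb), List.map_cons, List.sum_cons, zpow_add,
          col_same P h hb]
      · rw [List.filter_cons_of_neg (by simpa using hb)]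
        have : χ (P.above b) = 1 := by
          rcases hP (P.above b) with h1 | h1
          · rw [col_same P h h1, hk]
          · exact absurd h1 hb
        rw [this, one_zpow, one_mul]
  rw [key, ← zpow_add]
  simp

/-- A colouring of a sublink by a commutative group is trivial if its meridians are. -/
theorem trivial_of {A : Type*} [CommGroup A] {D : Diagram} {C : Set (Fin D.n)}
    {k e : Fin D.n} {P : Diagram} {k' e' : Fin P.n} (hS : SameSystem D C k e P k' e')
    (hP : ∀ i, P.SameComponent k' i ∨ P.SameComponent e' i)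
    (χ : Fin D.n → A) (h : D.IsCol χ) (hC : ∀ c ∈ C, χ c = 1) (hk : χ k = 1) (he : χ e = 1)
    (i : Fin D.n) : χ i = 1 := by
  obtain ⟨θ, ⟨t1, t2⟩, t3, t4⟩ := hS
  obtain ⟨F, hF⟩ := exists_hom_of_sublink D C χ h hC
  obtain ⟨F', hF'⟩ : ∃ F' : PresentedGroup (sublinkRelators P ∅) →* A, ∀ x : LinkGroup P ∅,
      F' x = F (θ.symm x) := by
    let Fc : LinkGroup D C →* A := F
    exact ⟨(Fc.comp θ.symm.toMonoidHom : LinkGroup P ∅ →* A), fun _ => rfl⟩
  obtain ⟨h1, h2⟩ := col_of_hom P (sublinkRelators P ∅) (fun _ hx => Or.inl hx) F'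
  have key : ∀ (w : FreeGroup (Fin D.n)) (w' : FreeGroup (Fin P.n)),
      θ (elem D C w) = elem P ∅ w' → F' (PresentedGroup.mk _ w') = FreeGroup.lift χ w := by
    intro w w' hw
    have e1 : F' (PresentedGroup.mk _ w') = F (θ.symm (elem P ∅ w')) := hF' (elem P ∅ w')
    rw [e1, ← hw, MulEquiv.symm_apply_apply]
    exact hF w
  have hk' : F' (PresentedGroup.mk _ (FreeGroup.of k')) = 1 := by
    rw [key _ _ t1, FreeGroup.lift_apply_of, hk]
  have he' : F' (PresentedGroup.mk _ (FreeGroup.of e')) = 1 := by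
    rw [key _ _ t3, FreeGroup.lift_apply_of, he]
  have hall : ∀ b, F' (PresentedGroup.mk _ (FreeGroup.of b)) = 1 := by
    intro b
    rcases hP b with hb | hb
    · have := col_same P h1 hb
      exact this.trans hk'
    · have := col_same P h1 hb
      exact this.trans he'
  have hF'1 : ∀ w, F' (PresentedGroup.mk _ w) = 1 := by
    intro w
    rw [← h2]
    have e1 : (fun a => F' (PresentedGroup.mk (sublinkRelators P ∅) (FreeGroup.of a))) =
        fun _ => (1 : A) := funext hall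
    rw [e1]
    have e2 : FreeGroup.lift (fun _ : Fin P.n => (1 : A)) = 1 := by
      ext i
      simp
    rw [e2]
    rfl
  have h3 : F (PresentedGroup.mk _ (FreeGroup.of i)) = χ i := by
    rw [hF, FreeGroup.lift_apply_of]
  have h4 : F' (θ (elem D C (FreeGroup.of i))) = F (PresentedGroup.mk _ (FreeGroup.of i)) := by
    have := hF' (θ (elem D C (FreeGroup.of i)))
    rw [MulEquiv.symm_apply_apply] at this
    exact this
  obtain ⟨w, hw⟩ : ∃ w : FreeGroup (Fin P.n), θ (elem D C (FreeGroup.of i)) = elem P ∅ w := by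
    obtain ⟨w, hw⟩ := PresentedGroup.mk_surjective (sublinkRelators P ∅)
      (θ (elem D C (FreeGroup.of i)))
    exact ⟨w, hw.symm⟩
  rw [← h3, ← h4, hw]
  exact hF'1 w

/-- Graded version of `not_iso_of_ssubset`. -/
theorem not_iso_graded {α : Type*} [Finite α] {G : Type*} [Group G] [Finite G]
    (ε : G →* ℤˣ) (R S : Set (FreeGroup α))
    (h : ∀ σ : α → G, (∃ i, ε (σ i) ≠ 1) → (∀ r ∈ S, FreeGroup.lift σ r = 1) →
      ∀ r ∈ R, FreeGroup.lift σ r = 1)
    (σ₀ : α → G) (h0 : ∃ i, ε (σ₀ i) ≠ 1) (h1 : ∀ r ∈ R, FreeGroup.lift σ₀ r = 1)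
    (h2 : ¬ ∀ r ∈ S, FreeGroup.lift σ₀ r = 1) :
    IsEmpty (PresentedGroup R ≃* PresentedGroup S) := by
  classical
  constructor
  intro φ
  have key : ∀ T : Set (FreeGroup α), Nonempty ({F : PresentedGroup T →* G // ∃ x, ε (F x) ≠ 1} ≃
      {σ : α → G // (∃ i, ε (σ i) ≠ 1) ∧ ∀ r ∈ T, FreeGroup.lift σ r = 1}) := by
    intro T
    refine ⟨{ toFun := fun f => ⟨fun a => f.1 (PresentedGroup.of a), ?_, ?_⟩,
              invFun := fun σ => ⟨PresentedGroup.toGroup (f := σ.1) σ.2.2, ?_⟩,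
              left_inv := ?_, right_inv := ?_ }⟩
    · by_contra hcon
      push Not at hcon
      obtain ⟨x, hx⟩ := f.2
      apply hx
      have h5 : ε.comp f.1 = 1 := by
        ext a
        simpa using hcon a
      have := DFunLike.congr_fun h5 x
      simpa using this
    · intro r hr
      have h3 : FreeGroup.lift (fun a => f.1 (PresentedGroup.of a)) =
          f.1.comp (PresentedGroup.mk T) := by
        ext a
        simp [PresentedGroup.of]
      rw [h3, MonoidHom.comp_apply]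
      have : PresentedGroup.mk T r = 1 := PresentedGroup.one_of_mem hr
      rw [this, map_one]
    · obtain ⟨i, hi⟩ := σ.2.1
      exact ⟨PresentedGroup.of i, by simpa using hi⟩
    · intro f
      apply Subtype.ext
      ext a
      simp
    · intro σ
      apply Subtype.ext
      funext a
      simp
  obtain ⟨eR⟩ := key R
  obtain ⟨eS⟩ := key S
  let A : Set (α → G) := {σ | (∃ i, ε (σ i) ≠ 1) ∧ ∀ r ∈ R, FreeGroup.lift σ r = 1}
  let B : Set (α → G) := {σ | (∃ i, ε (σ i) ≠ 1) ∧ ∀ r ∈ S, FreeGroup.lift σ r = 1}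
  have hBA : B ⊆ A := fun σ hσ => ⟨hσ.1, h σ hσ.1 hσ.2⟩
  have hss : B ⊂ A := (Set.ssubset_iff_of_subset hBA).2 ⟨σ₀, ⟨h0, h1⟩, fun hb => h2 hb.2⟩
  have hlt : B.ncard < A.ncard := Set.ncard_lt_ncard hss (Set.toFinite A)
  have hhom : Nat.card {F : PresentedGroup R →* G // ∃ x, ε (F x) ≠ 1} =
      Nat.card {F : PresentedGroup S →* G // ∃ x, ε (F x) ≠ 1} := by
    refine Nat.card_congr (Equiv.subtypeEquiv (MulEquiv.monoidHomCongrLeftEquiv φ) ?_)
    intro f
    constructor
    · rintro ⟨x, hx⟩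
      refine ⟨φ x, ?_⟩
      change ε (f (φ.symm (φ x))) ≠ 1
      rwa [MulEquiv.symm_apply_apply]
    · rintro ⟨x, hx⟩
      exact ⟨φ.symm x, hx⟩
  have hA : Nat.card {F : PresentedGroup R →* G // ∃ x, ε (F x) ≠ 1} = A.ncard := by
    rw [Nat.card_congr eR]; rfl
  have hB : Nat.card {F : PresentedGroup S →* G // ∃ x, ε (F x) ≠ 1} = B.ncard := by
    rw [Nat.card_congr eS]; rfl
  omega

/-- The graded criterion. -/
theorem general_graded {G : Type} [Group G] [Finite G] {N : ℕ} (hN : ∀ g : G, g ^ N = 1)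
    (ε : G →* ℤˣ) (P : Diagram) (k' e' : Fin P.n)
    (hP : ∀ i, P.SameComponent k' i ∨ P.SameComponent e' i) (f p₀ q₀ : ℤ)
    (hfirst : ∀ ρ : Fin P.n → G, P.IsCol ρ → ε (ρ k') ≠ 1 →
      (P.lonVal ρ e' = 1 → ρ e' = 1) → ε (ρ e') = ε (P.lonVal ρ e') ^ f →
      ρ k' ^ q₀ * P.lonVal ρ k' = 1 → ρ k' ^ (p₀ - q₀) = 1)
    (ρ₀ : Fin P.n → G) (h₀ : P.IsCol ρ₀) (hε : ε (ρ₀ k') ≠ 1)
    (hk : ρ₀ k' ^ p₀ * P.lonVal ρ₀ k' = 1)
    (hne : ρ₀ k' ^ (p₀ - q₀) ≠ 1) (he : ρ₀ e' = P.lonVal ρ₀ e' ^ f)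
    (D J : Diagram) (hJ : J.IsKnot) (C : Set (Fin D.n)) (a b : Fin D.n → ℤ)
    (k e : Fin D.n) (j : Fin J.n) (s p q : ℤ) (hS : SameSystem D C k e P k' e')
    (ha : ∀ c ∈ C, (N : ℤ) ∣ a c - 1) (hb : ∀ c ∈ C, (N : ℤ) ∣ b c) (hs : (N : ℤ) ∣ s)
    (hp : (N : ℤ) ∣ p - p₀) (hq : (N : ℤ) ∣ q - q₀) :
    IsEmpty (PresentedGroup (twistedRelators D J C a b k e j s f p) ≃*
      PresentedGroup (twistedRelators D J C a b k e j s f q)) := by
  obtain ⟨ρ, u1, u2, u3, u4, u5, u6⟩ := hS.up ρ₀ h₀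
  refine not_iso_graded ε _ _ ?_ (Sum.elim ρ (fun _ => P.lonVal ρ₀ e')) ⟨Sum.inl k, ?_⟩ ?_ ?_
  · intro σ hσ1 hσ
    rw [sat_twisted_iff] at hσ ⊢
    obtain ⟨g1, g2, gc, g3, g4, g5⟩ := hσ
    have hC : ∀ c ∈ C, (σ ∘ Sum.inl) c = 1 := by
      intro c hc
      have h := gc c hc
      rw [zpow_of_dvd hN _ (hb c hc), mul_one, zpow_congr hN _ (n := 1) (ha c hc), zpow_one] at h
      exact h
    have g3' := g3
    rw [zpow_of_dvd hN _ hs, mul_one] at g3'
    -- the character of the relations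
    have hJlon : ε (J.lonVal (σ ∘ Sum.inr) j) = 1 := by
      rw [← J.lonVal_map]
      have : (fun b => ε ((σ ∘ Sum.inr) b)) = fun _ => ε ((σ ∘ Sum.inr) j) := by
        funext b
        exact col_const J (χ := fun b => ε ((σ ∘ Sum.inr) b)) (Diagram.IsCol.map J g2 ε) hJ j b
      rw [this, J.lonVal_const hJ]
    have hεe : ε (σ (Sum.inl e)) = ε (D.lonVal (σ ∘ Sum.inl) e) ^ f := by
      rw [g4, map_mul, map_zpow, hJlon, mul_one, g3']
    obtain ⟨ρ', c1, c2, c3, c4, c5⟩ := hS.down (σ ∘ Sum.inl) g1 hC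
    have c2' : ρ' k' = σ (Sum.inl k) := c2
    have c4' : ρ' e' = σ (Sum.inl e) := c4
    have hεk : ε (σ (Sum.inl k)) ≠ 1 := by
      intro h1
      have hlonP : P.lonVal (fun i => ε (ρ' i)) e' = 1 :=
        lon_one P (Diagram.IsCol.map P c1 ε) k' e' hP (by
          change ε (ρ' k') = 1
          rw [c2', h1])
      rw [P.lonVal_map] at hlonP
      have hlonD : ε (D.lonVal (σ ∘ Sum.inl) e) = 1 := by rw [← c5, hlonP]
      have hεe1 : ε (σ (Sum.inl e)) = 1 := by rw [hεe, hlonD, one_zpow]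
      have hj1 : ε (σ (Sum.inr j)) = 1 := by rw [← g3', hlonD]
      obtain ⟨i, hi⟩ := hσ1
      apply hi
      rcases i with i | i
      · exact trivial_of hS hP (fun i => ε (σ (Sum.inl i))) (Diagram.IsCol.map D g1 ε)
          (fun c hc => by
            have := hC c hc
            change ε ((σ ∘ Sum.inl) c) = 1
            rw [this, map_one]) h1 hεe1 i
      · have := col_const J (χ := fun b => ε ((σ ∘ Sum.inr) b)) (Diagram.IsCol.map J g2 ε) hJ j i
        exact this.trans hj1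
    refine ⟨g1, g2, gc, g3, g4, ?_⟩
    rw [zpow_congr hN _ hq] at g5
    rw [zpow_congr hN _ hp]
    have h := hfirst ρ' c1 (by rw [c2']; exact hεk) ?_ ?_ ?_
    · rw [c2'] at h
      have e1 : σ (Sum.inl k) ^ p₀ = σ (Sum.inl k) ^ q₀ := by
        rw [zpow_sub, mul_inv_eq_one] at h
        exact h
      rw [e1]
      exact g5
    · intro h1
      rw [c5, g3'] at h1
      have hall : ∀ b, (σ ∘ Sum.inr) b = 1 := fun b =>
        Diagram.IsCol.eq_one J g2 (hJ j b) h1
      rw [c4', g4, Diagram.lonVal_of_one J hall, h1]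
      simp
    · rw [c4', c5]
      exact hεe
    · rw [c3, c2']
      exact g5
  · change ε (ρ k) ≠ 1
    rw [u3]; exact hε
  · rw [sat_twisted_iff]
    refine ⟨u1, Diagram.isCol_const J _, ?_, ?_, ?_, ?_⟩
    · intro c hc
      change ρ c ^ a c * D.lonVal ρ c ^ b c = 1
      rw [zpow_of_dvd hN _ (hb c hc), mul_one, u2 c hc, one_zpow]
    · change D.lonVal ρ e * ρ e ^ s = P.lonVal ρ₀ e'
      rw [zpow_of_dvd hN _ hs, mul_one, u6]
    · change ρ e = (P.lonVal ρ₀ e') ^ f * J.lonVal (fun _ => P.lonVal ρ₀ e') j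
      rw [Diagram.lonVal_const J hJ, mul_one, u5, he]
    · change ρ k ^ p * D.lonVal ρ k = 1
      rw [zpow_congr hN _ hp, u3, u4]
      exact hk
  · intro h
    rw [sat_twisted_iff] at h
    obtain ⟨-, -, -, -, -, h5⟩ := h
    have h6 : ρ k ^ q * D.lonVal ρ k = 1 := h5
    rw [zpow_congr hN _ hq, u3, u4] at h6
    apply hne
    have h7 : ρ₀ k' ^ p₀ = ρ₀ k' ^ q₀ := mul_right_cancel (hk.trans h6.symm)
    rw [zpow_sub, h7, mul_inv_cancel]

end Vale.Agent.P258.R2.H863
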