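import Vale.Agent.P258.R2.H863.Main

set_option linter.all false

/-!
Homomorphisms of the fundamental groups of the surgeries, and the parity obstruction.
-/

namespace Vale.Agent.P258.R2.H863

open Vale.Agent.P258

variable {G : Type} [Group G] (c : Cover G) (D : Diagram)

theorem finite_hom {α : Type*} [Finite α] {H : Type*} [Group H] [Finite H]
    (R : Set (FreeGroup α)) : Finite (PresentedGroup R →* H) := by
  apply Finite.of_injective (fun f : PresentedGroup R →* H =>
    fun i : α => f (PresentedGroup.mk R (FreeGroup.of i)))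
  intro f g h
  apply hom_ext
  intro w
  rw [← lift_comp_mk, ← lift_comp_mk]
  simp only at h
  rw [h]

theorem card_T (hD : D.IsKnot) (k : Fin D.n) (p q : ℤ) :
    Nat.card {f : PresentedGroup (surgeryRelators D ∅ 1 0 k p q) →* G //
      ∃ x, c.det (f x) ≠ 1} = (T c D k p q).ncard := by
  have hrel : ∀ f : PresentedGroup (surgeryRelators D ∅ 1 0 k p q) →* G,
      ∀ r ∈ surgeryRelators D ∅ 1 0 k p q,
        FreeGroup.lift (fun i => f (PresentedGroup.mk _ (FreeGroup.of i))) r = 1 := by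
    intro f r hr
    rw [lift_comp_mk]
    have : PresentedGroup.mk (surgeryRelators D ∅ 1 0 k p q) r = 1 :=
      PresentedGroup.one_of_mem hr
    rw [this, map_one]
  have hslope : ∀ σ : Fin D.n → G, FreeGroup.lift σ
      (FreeGroup.of k ^ p * D.longitude k ^ q) = σ k ^ p * D.lonVal σ k ^ q := by
    intro σ
    rw [map_mul, map_zpow, map_zpow, D.lift_longitude, FreeGroup.lift_apply_of]
  have hiff : ∀ σ : Fin D.n → G, (∀ r ∈ surgeryRelators D ∅ 1 0 k p q, FreeGroup.lift σ r = 1) ↔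
      D.IsCol σ ∧ σ k ^ p * D.lonVal σ k ^ q = 1 := by
    intro σ
    constructor
    · intro h
      refine ⟨fun a => (D.lift_wirtinger σ a).1 (h _ (Or.inl (Or.inl ⟨a, rfl⟩))), ?_⟩
      rw [← hslope]
      exact h _ (Or.inr rfl)
    · rintro ⟨h1, h2⟩ r ((⟨a, rfl⟩ | ⟨a, ha, -⟩) | hr)
      · exact (D.lift_wirtinger σ a).2 (h1 a)
      · exact ha.elim
      · rw [Set.mem_singleton_iff] at hr
        rw [hr, hslope, h2]
  have hmem : ∀ f : PresentedGroup (surgeryRelators D ∅ 1 0 k p q) →* G,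
      (∃ x, c.det (f x) ≠ 1) →
      (fun i => f (PresentedGroup.mk _ (FreeGroup.of i))) ∈ T c D k p q := by
    rintro f ⟨x, hx⟩
    obtain ⟨h1, h2⟩ := (hiff _).1 (hrel f)
    refine ⟨h1, fun h3 => hx ?_, h2⟩
    have h4 : ∀ b, c.det (f (PresentedGroup.mk _ (FreeGroup.of b))) = 1 := fun b => by
      have := det_const c D h1 hD k b
      rw [this]; exact h3
    have h5 : c.det.comp f = 1 := by
      apply hom_ext
      intro w
      rw [← lift_comp_mk]
      have : (fun i => (c.det.comp f) (PresentedGroup.mk _ (FreeGroup.of i))) =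
          fun _ => (1 : ℤˣ) := funext h4
      rw [this]
      simp only [MonoidHom.one_apply]
      have h6 : FreeGroup.lift (fun _ : Fin D.n => (1 : ℤˣ)) = 1 := by
        ext i
        simp
      rw [h6]
      rfl
    have := DFunLike.congr_fun h5 x
    simpa using this
  refine Nat.card_eq_of_bijective (fun f : {f : PresentedGroup
    (surgeryRelators D ∅ 1 0 k p q) →* G // ∃ x, c.det (f x) ≠ 1} =>
      (⟨_, hmem f.1 f.2⟩ : T c D k p q)) ⟨?_, ?_⟩
  · rintro ⟨f, hf⟩ ⟨g, hg⟩ h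
    apply Subtype.ext
    apply hom_ext
    intro w
    have h' := congrArg Subtype.val h
    simp only at h'
    rw [← lift_comp_mk, ← lift_comp_mk, h']
  · rintro ⟨σ, h1, h2, h3⟩
    obtain ⟨F, hF⟩ := exists_toGroup _ σ ((hiff σ).2 ⟨h1, h3⟩)
    have hFi : ∀ i, F (PresentedGroup.mk _ (FreeGroup.of i)) = σ i := fun i => by
      rw [hF, FreeGroup.lift_apply_of]
    refine ⟨⟨F, PresentedGroup.mk _ (FreeGroup.of k), by rw [hFi]; exact h2⟩, ?_⟩
    apply Subtype.ext
    funext i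
    exact hFi i

theorem card_iso {Γ Γ' : Type*} [Group Γ] [Group Γ'] (φ : Γ ≃* Γ') (det : G →* ℤˣ) :
    Nat.card {f : Γ →* G // ∃ x, det (f x) ≠ 1} =
      Nat.card {f : Γ' →* G // ∃ x, det (f x) ≠ 1} := by
  refine Nat.card_congr (Equiv.subtypeEquiv (MulEquiv.monoidHomCongrLeftEquiv φ) ?_)
  intro f
  constructor
  · rintro ⟨x, hx⟩
    refine ⟨φ x, ?_⟩
    change det (f (φ.symm (φ x))) ≠ 1
    rwa [MulEquiv.symm_apply_apply]
  · rintro ⟨x, hx⟩
    exact ⟨φ.symm x, hx⟩

theorem obstruction [Finite G] (hfree : SpecFree) (hcent : SpecCent) (hD : D.IsKnot)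
    (k : Fin D.n) (h48 : ¬ 48 ∣ (X D k).ncard) (p q p' q' : ℤ) (hq : q % 2 = 1)
    (hp : p % 4 = 2) (hq' : q' % 2 = 1) (hp' : p' % 4 = 2)
    (hdiff : (p + 2 * q - p' - 2 * q') % 8 = 4) :
    Nat.card {f : PresentedGroup (surgeryRelators D ∅ 1 0 k p q) →* G //
      ∃ x, c.det (f x) ≠ 1} ≠
    Nat.card {f : PresentedGroup (surgeryRelators D ∅ 1 0 k p' q') →* G //
      ∃ x, c.det (f x) ≠ 1} := by
  rw [card_T c D hD, card_T c D hD]
  exact fun h => h48 (dvd_of_card_eq c D hfree hcent hD k p q p' q' hq hp hq' hp' hdiff h)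

theorem iso_obstruction (hcover : SpecCover) (hfree : SpecFree) (hcent : SpecCent)
    (D : Diagram) (hD : D.IsKnot)
    (k : Fin D.n) (h48 : ¬ 48 ∣ (X D k).ncard) (p q p' q' : ℤ) (hq : q % 2 = 1)
    (hp : p % 4 = 2) (hq' : q' % 2 = 1) (hp' : p' % 4 = 2)
    (hdiff : (p + 2 * q - p' - 2 * q') % 8 = 4) :
    IsEmpty (PresentedGroup (surgeryRelators D ∅ 1 0 k p q) ≃*
      PresentedGroup (surgeryRelators D ∅ 1 0 k p' q')) := by
  obtain ⟨G, _, _, ⟨c⟩⟩ := hcover
  exact ⟨fun φ => obstruction c D hfree hcent hD k h48 p q p' q' hq hp hq' hp' hdiff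
    (card_iso φ c.det)⟩

theorem class_obstruction (hcover : SpecCover) (hfree : SpecFree) (hcent : SpecCent)
    (hcount : SpecCount) (P : Diagram) (hP : P.IsKnot)
    (k' : Fin P.n) (h48 : ¬ 48 ∣ (X P k').ncard) (p q p' q' : ℤ) (hq : q % 2 = 1)
    (hp : p % 4 = 2) (hq' : q' % 2 = 1) (hp' : p' % 4 = 2)
    (hdiff : (p + 2 * q - p' - 2 * q') % 8 = 4) :
    SeparatesKnotClass 24 P k' p q p' q' := by
  obtain ⟨G, _, _, ⟨c⟩⟩ := hcover
  intro D C a b k hS hC r s r' s' h1 h2 h3 h4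
  refine ⟨fun φ => ?_⟩
  have hG : ∀ g : G, g ^ 24 = 1 := c.exp
  have hK : ∀ g : c.det.ker, g ^ 24 = 1 := fun g => Subtype.ext (by
    rw [Subgroup.coe_pow, c.exp]; rfl)
  have A : ∀ (r s p q : ℤ), (24 : ℤ) ∣ r - p → (24 : ℤ) ∣ s - q →
      Nat.card {f : PresentedGroup (surgeryRelators D C a b k r s) →* G //
        ∃ x, c.det (f x) ≠ 1} =
      Nat.card {f : PresentedGroup (surgeryRelators P ∅ 1 0 k' p q) →* G //
        ∃ x, c.det (f x) ≠ 1} := by
    intro r s p q h1 h2
    have e1 := card_hom_congr (N := 24) hG D C a b k P k' hS (fun c hc => (hC c hc).1)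
      (fun c hc => (hC c hc).2) r s p q h1 h2
    have e2 := card_hom_congr (N := 24) hK D C a b k P k' hS (fun c hc => (hC c hc).1)
      (fun c hc => (hC c hc).2) r s p q h1 h2
    haveI := finite_hom (H := G) (surgeryRelators D C a b k r s)
    haveI := finite_hom (H := G) (surgeryRelators P ∅ 1 0 k' p q)
    have e3 := hcount (PresentedGroup (surgeryRelators D C a b k r s)) G c.det
    have e4 := hcount (PresentedGroup (surgeryRelators P ∅ 1 0 k' p q)) G c.det
    omega
  apply obstruction c P hfree hcent hP k' h48 p q p' q' hq hp hq' hp' hdiff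
  rw [← A r s p q h1 h2, ← A r' s' p' q' h3 h4]
  exact card_iso φ c.det

end Vale.Agent.P258.R2.H863
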