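import Vale.Agent.P258.R2.H863.Main5
import Vale.Agent.P258.R2.H863.Homs

set_option linter.all false

/-!
The obstruction from homomorphisms to `S₅`.
-/

namespace Vale.Agent.P258.R2.H863.Five

open Vale.Agent.P258 Vale.Agent.P258.R2.H863

variable {G : Type} [Group G] (c : Cover5 G) (D : Diagram)

theorem card_T (hD : D.IsKnot) (k : Fin D.n) (p : ℤ) :
    Nat.card {f : PresentedGroup (surgeryRelators D ∅ 1 0 k p 1) →* G //
      ∃ x, c.det (f x) ≠ 1} = (T c D k p).ncard := by
  have hrel : ∀ f : PresentedGroup (surgeryRelators D ∅ 1 0 k p 1) →* G,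
      ∀ r ∈ surgeryRelators D ∅ 1 0 k p 1,
        FreeGroup.lift (fun i => f (PresentedGroup.mk _ (FreeGroup.of i))) r = 1 := by
    intro f r hr
    rw [lift_comp_mk]
    have : PresentedGroup.mk (surgeryRelators D ∅ 1 0 k p 1) r = 1 :=
      PresentedGroup.one_of_mem hr
    rw [this, map_one]
  have hslope : ∀ σ : Fin D.n → G, FreeGroup.lift σ
      (FreeGroup.of k ^ p * D.longitude k ^ (1 : ℤ)) = σ k ^ p * D.lonVal σ k ^ (1 : ℤ) := by
    intro σ
    rw [map_mul, map_zpow, map_zpow, D.lift_longitude, FreeGroup.lift_apply_of]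
  have hiff : ∀ σ : Fin D.n → G, (∀ r ∈ surgeryRelators D ∅ 1 0 k p 1, FreeGroup.lift σ r = 1) ↔
      D.IsCol σ ∧ σ k ^ p * D.lonVal σ k ^ (1 : ℤ) = 1 := by
    intro σ
    constructor
    · intro h
      refine ⟨fun a => (D.lift_wirtinger σ a).1 (h _ (Or.inl (Or.inl ⟨a, rfl⟩))), ?_⟩
      rw [← hslope]
      exact h _ (Or.inr rfl)
    · rintro ⟨h1, h2⟩ r ((⟨a, rfl⟩ | ⟨a, ha, -⟩) | hr)
      · exact (D.lift_wirtinger σ a).2 (h1 a)
      · exact ha.elim
      · rw [Set.mem_singleton_iff] at hr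
        rw [hr, hslope, h2]
  have hmem : ∀ f : PresentedGroup (surgeryRelators D ∅ 1 0 k p 1) →* G,
      (∃ x, c.det (f x) ≠ 1) →
      (fun i => f (PresentedGroup.mk _ (FreeGroup.of i))) ∈ T c D k p := by
    rintro f ⟨x, hx⟩
    obtain ⟨h1, h2⟩ := (hiff _).1 (hrel f)
    refine ⟨h1, fun h3 => hx ?_, h2⟩
    have h4 : ∀ b, c.det (f (PresentedGroup.mk _ (FreeGroup.of b))) = 1 := fun b => by
      have := det_const c D h1 hD k b
      rw [this]; exact h3
    have h5 : c.det.comp f = 1 := by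
      apply hom_ext
      intro w
      rw [← lift_comp_mk]
      have : (fun i => (c.det.comp f) (PresentedGroup.mk _ (FreeGroup.of i))) =
          fun _ => (1 : ℤˣ) := funext h4
      rw [this]
      simp only [MonoidHom.one_apply]
      have h6 : FreeGroup.lift (fun _ : Fin D.n => (1 : ℤˣ)) = 1 := by
        ext i
        simp
      rw [h6]
      rfl
    have := DFunLike.congr_fun h5 x
    simpa using this
  refine Nat.card_eq_of_bijective (fun f : {f : PresentedGroup
    (surgeryRelators D ∅ 1 0 k p 1) →* G // ∃ x, c.det (f x) ≠ 1} =>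
      (⟨_, hmem f.1 f.2⟩ : T c D k p)) ⟨?_, ?_⟩
  · rintro ⟨f, hf⟩ ⟨g, hg⟩ h
    apply Subtype.ext
    apply hom_ext
    intro w
    have h' := congrArg Subtype.val h
    simp only at h'
    rw [← lift_comp_mk, ← lift_comp_mk, h']
  · rintro ⟨σ, h1, h2, h3⟩
    obtain ⟨F, hF⟩ := exists_toGroup _ σ ((hiff σ).2 ⟨h1, h3⟩)
    have hFi : ∀ i, F (PresentedGroup.mk _ (FreeGroup.of i)) = σ i := fun i => by
      rw [hF, FreeGroup.lift_apply_of]
    refine ⟨⟨F, PresentedGroup.mk _ (FreeGroup.of k), by rw [hFi]; exact h2⟩, ?_⟩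
    apply Subtype.ext
    funext i
    exact hFi i


theorem obstruction [Finite G] (hfree : SpecFree) (hcent : SpecCent5) (hD : D.IsKnot)
    (k : Fin D.n) (hno : NoSix D k) (h240 : ¬ 240 ∣ (X D k).ncard) :
    Nat.card {f : PresentedGroup (surgeryRelators D ∅ 1 0 k 2 1) →* G //
      ∃ x, c.det (f x) ≠ 1} ≠
    Nat.card {f : PresentedGroup (surgeryRelators D ∅ 1 0 k (-2) 1) →* G //
      ∃ x, c.det (f x) ≠ 1} := by
  rw [card_T c D hD, card_T c D hD]
  exact fun h => h240 (dvd_of_card_eq c D hfree hcent hD k hno h)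

theorem iso_obstruction (hcover : SpecCover5) (hfree : SpecFree) (hcent : SpecCent5)
    (D : Diagram) (hD : D.IsKnot)
    (k : Fin D.n) (hno : NoSix D k) (h240 : ¬ 240 ∣ (X D k).ncard) :
    IsEmpty (PresentedGroup (surgeryRelators D ∅ 1 0 k 2 1) ≃*
      PresentedGroup (surgeryRelators D ∅ 1 0 k (-2) 1)) := by
  obtain ⟨G, _, _, ⟨c⟩⟩ := hcover
  exact ⟨fun φ => obstruction c D hfree hcent hD k hno h240 (card_iso φ c.det)⟩

theorem class_obstruction (hcover : SpecCover5) (hfree : SpecFree) (hcent : SpecCent5)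
    (hcount : SpecCount) (P : Diagram) (hP : P.IsKnot)
    (k' : Fin P.n) (hno : NoSix P k') (h240 : ¬ 240 ∣ (X P k').ncard) :
    SeparatesKnotClass 120 P k' 2 1 (-2) 1 := by
  obtain ⟨G, _, _, ⟨c⟩⟩ := hcover
  intro D C a b k hS hC r s r' s' h1 h2 h3 h4
  refine ⟨fun φ => ?_⟩
  have hG : ∀ g : G, g ^ 120 = 1 := c.exp
  have hK : ∀ g : c.det.ker, g ^ 120 = 1 := fun g => Subtype.ext (by
    rw [Subgroup.coe_pow, c.exp]; rfl)
  have A : ∀ (r s p q : ℤ), (120 : ℤ) ∣ r - p → (120 : ℤ) ∣ s - q →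
      Nat.card {f : PresentedGroup (surgeryRelators D C a b k r s) →* G //
        ∃ x, c.det (f x) ≠ 1} =
      Nat.card {f : PresentedGroup (surgeryRelators P ∅ 1 0 k' p q) →* G //
        ∃ x, c.det (f x) ≠ 1} := by
    intro r s p q h1 h2
    have e1 := card_hom_congr (N := 120) hG D C a b k P k' hS (fun c hc => (hC c hc).1)
      (fun c hc => (hC c hc).2) r s p q h1 h2
    have e2 := card_hom_congr (N := 120) hK D C a b k P k' hS (fun c hc => (hC c hc).1)
      (fun c hc => (hC c hc).2) r s p q h1 h2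
    haveI := finite_hom (H := G) (surgeryRelators D C a b k r s)
    haveI := finite_hom (H := G) (surgeryRelators P ∅ 1 0 k' p q)
    have e3 := hcount (PresentedGroup (surgeryRelators D C a b k r s)) G c.det
    have e4 := hcount (PresentedGroup (surgeryRelators P ∅ 1 0 k' p q)) G c.det
    omega
  apply obstruction c P hfree hcent hP k' hno h240
  rw [← A r s 2 1 h1 h2, ← A r' s' (-2) 1 h3 h4]
  exact card_iso φ c.det

end Vale.Agent.P258.R2.H863.Five
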