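import Vale.Agent.P258.R2.H863.Spec

set_option linter.all false

namespace Vale.Agent.P258.R2.H863

open Vale.Agent.P258

section general

variable {G : Type*} [Group G] (D : Diagram)

theorem walk_conj {ρ : Fin D.n → G} (h : D.IsCol ρ) (k : Fin D.n) (i : ℕ) :
    ρ (D.next^[i] k) = ((((List.range i).map fun j => D.next^[j] k).map
      fun b => ρ (D.above b) ^ (D.sgn b : ℤ)).prod)⁻¹ * ρ k *
      (((List.range i).map fun j => D.next^[j] k).map
      fun b => ρ (D.above b) ^ (D.sgn b : ℤ)).prod := by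
  induction i with
  | zero => simp
  | succ i ih =>
    rw [Function.iterate_succ_apply', h, ih, List.range_succ, List.map_append, List.map_append,
      List.prod_append]
    simp only [List.map_cons, List.map_nil, List.prod_cons, List.prod_nil, mul_one]
    group

theorem col_comm {ρ : Fin D.n → G} (h : D.IsCol ρ) (k : Fin D.n) :
    ρ k * D.lonVal ρ k = D.lonVal ρ k * ρ k := by
  have h1 := walk_conj D h k (Function.minimalPeriod D.next k)
  rw [Function.iterate_minimalPeriod] at h1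
  unfold Diagram.lonVal Diagram.walk
  generalize (((List.range (Function.minimalPeriod D.next k)).map fun j => D.next^[j] k).map
      fun b => ρ (D.above b) ^ (D.sgn b : ℤ)).prod = W at h1 ⊢
  have h2 : W * ρ k = ρ k * W := by
    calc W * ρ k = W * (W⁻¹ * ρ k * W) := by rw [← h1]
      _ = ρ k * W := by group
  calc ρ k * (W * ρ k ^ (-D.selfWrithe k)) = (ρ k * W) * ρ k ^ (-D.selfWrithe k) := by group
    _ = (W * ρ k) * ρ k ^ (-D.selfWrithe k) := by rw [h2]
    _ = W * ρ k ^ (-D.selfWrithe k) * ρ k := by group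

theorem col_const {A : Type*} [CommGroup A] {χ : Fin D.n → A} (h : D.IsCol χ) (hD : D.IsKnot)
    (k b : Fin D.n) : χ b = χ k := by
  obtain ⟨i, rfl⟩ := hD k b
  induction i with
  | zero => rfl
  | succ i ih =>
    rw [Function.iterate_succ_apply', h, ← ih, mul_comm (χ (D.above _) ^ _) (χ _), mul_assoc,
      ← zpow_add]
    simp

theorem lon_central {ρ : Fin D.n → G} (hD : D.IsKnot) (k : Fin D.n) (ζ : G)
    (hζ : ∀ g, g * ζ = ζ * g) : D.lonVal (fun a => ρ a * ζ) k = D.lonVal ρ k := by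
  have hp : ∀ (g : G) (n : ℤ), (g * ζ) ^ n = g ^ n * ζ ^ n := fun g n =>
    (show Commute g ζ from hζ g).mul_zpow n
  have hc : ∀ (g : G) (n : ℤ), g * ζ ^ n = ζ ^ n * g := fun g n =>
    ((show Commute g ζ from hζ g).zpow_right n).eq
  have h1 : ∀ l : List (Fin D.n), (l.map fun b => (ρ (D.above b) * ζ) ^ (D.sgn b : ℤ)).prod =
      (l.map fun b => ρ (D.above b) ^ (D.sgn b : ℤ)).prod *
        (l.map fun b => ζ ^ (D.sgn b : ℤ)).prod := by
    intro l
    induction l with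
    | nil => simp
    | cons b l ih =>
      simp only [List.map_cons, List.prod_cons]
      rw [ih, hp, mul_assoc, mul_assoc, ← mul_assoc (ζ ^ _) _ _, ← hc, mul_assoc]
  have h2 := D.lonVal_const hD ζ k
  unfold Diagram.lonVal at h2 ⊢
  rw [h1, hp, mul_assoc, ← mul_assoc ((D.walk k).map fun b => ζ ^ (D.sgn b : ℤ)).prod _ _]
  have h3 : ((D.walk k).map fun b => ζ ^ (D.sgn b : ℤ)).prod * ρ k ^ (-D.selfWrithe k) =
      ρ k ^ (-D.selfWrithe k) * ((D.walk k).map fun b => ζ ^ (D.sgn b : ℤ)).prod := by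
    generalize ρ k ^ (-D.selfWrithe k) = x
    have : ∀ l : List (Fin D.n), (l.map fun b => ζ ^ (D.sgn b : ℤ)).prod * x =
        x * (l.map fun b => ζ ^ (D.sgn b : ℤ)).prod := by
      intro l
      induction l with
      | nil => simp
      | cons b l ih =>
        simp only [List.map_cons, List.prod_cons]
        rw [mul_assoc, ih, ← mul_assoc, ← mul_assoc, hc]
    exact this _
  rw [h3, mul_assoc (ρ k ^ _) _ _, h2, mul_one]

theorem col_central {ρ : Fin D.n → G} (h : D.IsCol ρ) (ζ : G) (hζ : ∀ g, g * ζ = ζ * g) :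
    D.IsCol (fun a => ρ a * ζ) := by
  intro a
  have hz : ∀ n : ℤ, (ρ (D.above a) * ζ) ^ n = ρ (D.above a) ^ n * ζ ^ n := fun n =>
    (show Commute (ρ (D.above a)) ζ from hζ _).mul_zpow n
  have hc : ∀ (n : ℤ) (g : G), g * ζ ^ n = ζ ^ n * g := fun n g =>
    ((show Commute g ζ from hζ g).zpow_right n).eq
  simp only
  rw [hz, hz, h a]
  generalize ρ (D.above a) = x
  generalize ρ a = g
  generalize (D.sgn a : ℤ) = n
  calc x ^ (-n) * g * x ^ n * ζ = x ^ (-n) * g * (x ^ n * ζ) := by rw [mul_assoc]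
    _ = x ^ (-n) * g * (ζ * x ^ n) := by rw [hζ]
    _ = x ^ (-n) * (g * ζ) * x ^ n * (ζ ^ (-n) * ζ ^ n) := by group
    _ = x ^ (-n) * (g * ζ) * (x ^ n * ζ ^ (-n)) * ζ ^ n := by simp only [mul_assoc]
    _ = x ^ (-n) * (g * ζ) * (ζ ^ (-n) * x ^ n) * ζ ^ n := by rw [hc (-n) (x ^ n)]
    _ = x ^ (-n) * ((g * ζ) * ζ ^ (-n)) * (x ^ n * ζ ^ n) := by simp only [mul_assoc]
    _ = x ^ (-n) * (ζ ^ (-n) * (g * ζ)) * (x ^ n * ζ ^ n) := by rw [hc (-n) (g * ζ)]
    _ = x ^ (-n) * ζ ^ (-n) * (g * ζ) * (x ^ n * ζ ^ n) := by simp only [mul_assoc]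

/-- Two colourings that differ by central elements differ by one central element. -/
theorem diff_const {σ τ : Fin D.n → G} (h : D.IsCol σ) (h' : D.IsCol τ) (hD : D.IsKnot)
    (k : Fin D.n) (δ : Fin D.n → G) (hδ : ∀ a, σ a = τ a * δ a) (hc : ∀ a g, g * δ a = δ a * g)
    (b : Fin D.n) : δ b = δ k := by
  obtain ⟨i, rfl⟩ := hD k b
  induction i with
  | zero => rfl
  | succ i ih =>
    rw [Function.iterate_succ_apply']
    generalize D.next^[i] k = a at ih ⊢
    rw [← ih]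
    have h1 := h a
    rw [hδ (D.next a), h' a, hδ (D.above a), hδ a] at h1
    have hz : ∀ n : ℤ, (τ (D.above a) * δ (D.above a)) ^ n =
      τ (D.above a) ^ n * δ (D.above a) ^ n := fun n =>
      (show Commute (τ (D.above a)) (δ (D.above a)) from hc _ _).mul_zpow n
    have hcn : ∀ (n : ℤ) (g : G), g * δ (D.above a) ^ n = δ (D.above a) ^ n * g := fun n g =>
      ((show Commute g (δ (D.above a)) from hc _ g).zpow_right n).eq
    rw [hz, hz] at h1
    have hca := hc a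
    generalize τ (D.above a) = x at *
    generalize δ (D.above a) = y at *
    generalize (D.sgn a : ℤ) = n at *
    have h2 : x ^ (-n) * y ^ (-n) * (τ a * δ a) * (x ^ n * y ^ n) =
        x ^ (-n) * τ a * x ^ n * δ a := by
      calc x ^ (-n) * y ^ (-n) * (τ a * δ a) * (x ^ n * y ^ n)
          = x ^ (-n) * (y ^ (-n) * (τ a * δ a)) * (x ^ n * y ^ n) := by simp only [mul_assoc]
        _ = x ^ (-n) * ((τ a * δ a) * y ^ (-n)) * (x ^ n * y ^ n) := by rw [hcn (-n) (τ a * δ a)]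
        _ = x ^ (-n) * (τ a * δ a) * (y ^ (-n) * x ^ n) * y ^ n := by simp only [mul_assoc]
        _ = x ^ (-n) * (τ a * δ a) * (x ^ n * y ^ (-n)) * y ^ n := by rw [hcn (-n) (x ^ n)]
        _ = x ^ (-n) * τ a * (δ a * x ^ n) := by group
        _ = x ^ (-n) * τ a * (x ^ n * δ a) := by rw [hca]
        _ = x ^ (-n) * τ a * x ^ n * δ a := by simp only [mul_assoc]
    rw [h2] at h1
    exact mul_left_cancel h1

end general


variable {G : Type} [Group G] (c : Cover G) (D : Diagram)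

/-- Homomorphisms with meridian a 4-cycle and longitude its square. -/
def X (k : Fin D.n) : Set (Fin D.n → Equiv.Perm (Fin 4)) :=
  {ρ | D.IsCol ρ ∧ Is4 (ρ k) ∧ D.lonVal ρ k = ρ k ^ 2}

/-- Those with lift of type `w`. -/
def XW (k : Fin D.n) (w : G) : Set (Fin D.n → Equiv.Perm (Fin 4)) :=
  {ρ | D.IsCol ρ ∧ Is4 (ρ k) ∧ D.lonVal ρ k = ρ k ^ 2 ∧
    D.lonVal (fun a => c.τ (ρ a)) k = c.τ (ρ k) ^ 2 * w}

/-- Colourings with `g ^ 4 = z`, longitude `g ^ 2 * w`. -/
def U (k : Fin D.n) (w : G) : Set (Fin D.n → G) :=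
  {σ | D.IsCol σ ∧ σ k ^ 4 = c.z ∧ D.lonVal σ k = σ k ^ 2 * w}

theorem det_const {σ : Fin D.n → G} (h : D.IsCol σ) (hD : D.IsKnot) (k b : Fin D.n) :
    c.det (σ b) = c.det (σ k) :=
  col_const D (χ := fun a => c.det (σ a)) (Diagram.IsCol.map D h c.det) hD k b

theorem det_lon {σ : Fin D.n → G} (h : D.IsCol σ) (hD : D.IsKnot) (k : Fin D.n) :
    c.det (D.lonVal σ k) = 1 := by
  rw [← D.lonVal_map σ c.det k]
  have : (fun b => c.det (σ b)) = fun _ => c.det (σ k) := by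
    funext b
    exact det_const c D h hD k b
  rw [this, D.lonVal_const hD]

theorem is4_next {ρ : Fin D.n → Equiv.Perm (Fin 4)} (h : D.IsCol ρ) (a : Fin D.n)
    (ha : Is4 (ρ a)) : Is4 (ρ (D.next a)) := by
  rw [h a]
  have h1 : ρ (D.above a) ^ (-(D.sgn a : ℤ)) * ρ a * ρ (D.above a) ^ (D.sgn a : ℤ) =
      (ρ (D.above a) ^ (-(D.sgn a : ℤ))) * ρ a * (ρ (D.above a) ^ (-(D.sgn a : ℤ)))⁻¹ := by
    group
  rw [h1]
  generalize ρ (D.above a) ^ (-(D.sgn a : ℤ)) = x
  unfold Is4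
  rw [conj_pow, conj_pow]
  refine ⟨by rw [ha.1]; group, fun h2 => ha.2 ?_⟩
  have : ρ a ^ 2 = x⁻¹ * (x * ρ a ^ 2 * x⁻¹) * x := by group
  rw [this, h2]; group

theorem is4_all {ρ : Fin D.n → Equiv.Perm (Fin 4)} (h : D.IsCol ρ) (hD : D.IsKnot) (k : Fin D.n)
    (hk : Is4 (ρ k)) (b : Fin D.n) : Is4 (ρ b) := by
  obtain ⟨i, rfl⟩ := hD k b
  induction i with
  | zero => exact hk
  | succ i ih => rw [Function.iterate_succ_apply']; exact is4_next D h _ ih

/-- The lift of a colouring by 4-cycles is a colouring. -/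
theorem lift_col {ρ : Fin D.n → Equiv.Perm (Fin 4)} (h : D.IsCol ρ) (h4 : ∀ b, Is4 (ρ b)) :
    D.IsCol (fun a => c.τ (ρ a)) := by
  intro a
  have h1 : ∀ (x : G) (n : ℤ), x ^ (-n) = (x ^ (-n)) := fun _ _ => rfl
  have h2 := c.τ_conj (c.τ (ρ (D.above a)) ^ (-(D.sgn a : ℤ))) (ρ a) (h4 a)
  rw [map_zpow, c.pr_τ _ (h4 _)] at h2
  have h3 : ρ (D.next a) = ρ (D.above a) ^ (-(D.sgn a : ℤ)) * ρ a *
      (ρ (D.above a) ^ (-(D.sgn a : ℤ)))⁻¹ := by
    rw [h a, zpow_neg, inv_inv]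
  simp only
  rw [h3, ← h2, zpow_neg, inv_inv]

theorem lift_four {d : Equiv.Perm (Fin 4)} (h : Is4 d) : c.τ d ^ 4 = c.z := by
  rw [c.four, c.pr_τ _ h]; exact h

theorem pr_lon {ρ : Fin D.n → Equiv.Perm (Fin 4)} (h4 : ∀ b, Is4 (ρ b)) (k : Fin D.n) :
    c.pr (D.lonVal (fun a => c.τ (ρ a)) k) = D.lonVal ρ k := by
  rw [← D.lonVal_map]
  congr 1
  funext b
  exact c.pr_τ _ (h4 b)

theorem X_eq (hD : D.IsKnot) (k : Fin D.n) : X D k = XW c D k 1 ∪ XW c D k c.z := by
  ext ρ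
  constructor
  · rintro ⟨h1, h2, h3⟩
    have h4 := is4_all D h1 hD k h2
    have h5 : c.pr (c.τ (ρ k) ^ 2) = c.pr (D.lonVal (fun a => c.τ (ρ a)) k) := by
      rw [map_pow, c.pr_τ _ h2, pr_lon c D h4, h3]
    rcases c.pr_inj _ _ h5 with h6 | h6
    · left; exact ⟨h1, h2, h3, by rw [h6, mul_one]⟩
    · right; exact ⟨h1, h2, h3, h6⟩
  · rintro (⟨h1, h2, h3, -⟩ | ⟨h1, h2, h3, -⟩) <;> exact ⟨h1, h2, h3⟩

theorem X_disj (k : Fin D.n) : Disjoint (XW c D k 1) (XW c D k c.z) := by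
  rw [Set.disjoint_left]
  rintro ρ ⟨-, -, -, h1⟩ ⟨-, -, -, h2⟩
  apply c.z_ne
  have := h2.symm.trans h1
  exact mul_left_cancel this

theorem z_inv_pow (b : Bool) : ∀ g : G, g * (if b then c.z else 1) = (if b then c.z else 1) * g := by
  intro g
  cases b
  · simp
  · simpa using c.z_comm g

/-- Each colouring by 4-cycles has exactly two lifts. -/
theorem card_U [Finite G] (hD : D.IsKnot) (k : Fin D.n) (w : G) (hw : w = 1 ∨ w = c.z) :
    (U c D k w).ncard = (XW c D k w).ncard * 2 := by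
  have hprw : c.pr w = 1 := by
    rcases hw with rfl | rfl
    · exact map_one _
    · exact c.pr_z
  let Z : Bool → G := fun b => if b then c.z else 1
  have hZc : ∀ b (g : G), g * Z b = Z b * g := fun b g => z_inv_pow c b g
  have hZpr : ∀ b, c.pr (Z b) = 1 := by
    intro b; cases b
    · simp [Z]
    · simpa [Z] using c.pr_z
  have hZsq : ∀ b, Z b ^ 2 = 1 := by
    intro b; cases b
    · simp [Z]
    · simpa [Z, pow_two] using c.z_sq
  have hmul : ∀ (g : G) b (n : ℕ), (g * Z b) ^ n = g ^ n * Z b ^ n := fun g b n =>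
    (show Commute g (Z b) from hZc b g).mul_pow n
  have hwell : ∀ (ρ : Fin D.n → Equiv.Perm (Fin 4)) (b : Bool), ρ ∈ XW c D k w →
      (fun a => c.τ (ρ a) * Z b) ∈ U c D k w := by
    rintro ρ b ⟨h1, h2, h3, h5⟩
    have h4 := is4_all D h1 hD k h2
    have hcol := lift_col c D h1 h4
    refine ⟨col_central D hcol (Z b) (hZc b), ?_, ?_⟩
    · simp only
      rw [hmul, lift_four c h2, show (4 : ℕ) = 2 * 2 from rfl, pow_mul, hZsq, one_pow, mul_one]
    · rw [lon_central D hD k (Z b) (hZc b), h5]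
      simp only
      rw [hmul, hZsq, mul_one]
  have hbij : Function.Bijective (fun x : XW c D k w × Bool =>
      (⟨fun a => c.τ (x.1.1 a) * Z x.2, hwell x.1.1 x.2 x.1.2⟩ : U c D k w)) := by
    constructor
    · rintro ⟨⟨ρ, hρ⟩, b⟩ ⟨⟨ρ', hρ'⟩, b'⟩ h
      have h0 : ∀ a, c.τ (ρ a) * Z b = c.τ (ρ' a) * Z b' := fun a =>
        congrFun (congrArg Subtype.val h) a
      have e1 : ρ = ρ' := by
        funext a
        have := congrArg c.pr (h0 a)
        rw [map_mul, map_mul, hZpr, hZpr, mul_one, mul_one,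
          c.pr_τ _ (is4_all D hρ.1 hD k hρ.2.1 a), c.pr_τ _ (is4_all D hρ'.1 hD k hρ'.2.1 a)] at this
        exact this
      subst e1
      have e2 : Z b = Z b' := mul_left_cancel (h0 k)
      have e3 : b = b' := by
        cases b <;> cases b' <;> simp [Z] at e2 ⊢
        · exact c.z_ne e2.symm
        · exact c.z_ne e2
      rw [e3]
    · rintro ⟨σ, h1, h2, h3⟩
      have hρ : D.IsCol (fun a => c.pr (σ a)) := Diagram.IsCol.map D h1 c.pr
      have hk : Is4 (c.pr (σ k)) := (c.four _).1 h2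
      have h4 := is4_all D hρ hD k hk
      have hcol := lift_col c D hρ h4
      have hδ : ∀ a, ∃ b : Bool, σ a = c.τ (c.pr (σ a)) * Z b := by
        intro a
        rcases c.pr_inj (c.τ (c.pr (σ a))) (σ a) (c.pr_τ _ (h4 a)) with h5 | h5
        · exact ⟨false, by simpa [Z] using h5⟩
        · exact ⟨true, by simpa [Z] using h5⟩
      choose δ hδ' using hδ
      have hconst := diff_const D h1 hcol hD k (fun a => Z (δ a)) hδ' (fun a g => hZc _ g)
      have hσ : σ = fun a => c.τ (c.pr (σ a)) * Z (δ k) := by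
        funext a
        have := hδ' a
        rw [hconst a] at this
        exact this
      have hlon : D.lonVal (fun a => c.τ (c.pr (σ a))) k = D.lonVal σ k := by
        conv_rhs => rw [hσ]
        rw [lon_central D hD k (Z (δ k)) (hZc (δ k))]
      refine ⟨⟨⟨fun a => c.pr (σ a), hρ, hk, ?_, ?_⟩, δ k⟩, ?_⟩
      · rw [D.lonVal_map, h3, map_mul, hprw, mul_one, map_pow]
      · rw [hlon, h3]
        have : σ k = c.τ (c.pr (σ k)) * Z (δ k) := hδ' k
        conv_lhs => rw [this, hmul, hZsq, mul_one]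
      · apply Subtype.ext
        exact hσ.symm
  have := Nat.card_eq_of_bijective _ hbij
  rw [Nat.card_prod] at this
  simpa [Set.ncard] using this.symm

/-! ### The free action of `S₄` -/

abbrev S4 := Equiv.Perm (Fin 4)

theorem conj_col {H : Type*} [Group H] {ρ : Fin D.n → H} (h : D.IsCol ρ) (y : H) :
    D.IsCol (fun a => y * ρ a * y⁻¹) :=
  Diagram.IsCol.map D h (MulAut.conj y).toMonoidHom

theorem conj_lon {H : Type*} [Group H] (ρ : Fin D.n → H) (y : H) (k : Fin D.n) :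
    D.lonVal (fun a => y * ρ a * y⁻¹) k = y * D.lonVal ρ k * y⁻¹ :=
  D.lonVal_map ρ (MulAut.conj y).toMonoidHom k

theorem is4_conj {d : S4} (h : Is4 d) (y : S4) : Is4 (y * d * y⁻¹) := by
  unfold Is4
  rw [conj_pow, conj_pow]
  refine ⟨by rw [h.1]; group, fun h2 => h.2 ?_⟩
  have : d ^ 2 = y⁻¹ * (y * d ^ 2 * y⁻¹) * y := by group
  rw [this, h2]; group

theorem XW_conj (hD : D.IsKnot) (k : Fin D.n) (w : G) (hw : ∀ g, g * w = w * g)
    {ρ : Fin D.n → S4} (h : ρ ∈ XW c D k w) (y : S4) :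
    (fun a => y * ρ a * y⁻¹) ∈ XW c D k w := by
  obtain ⟨h1, h2, h3, h5⟩ := h
  have h4 := is4_all D h1 hD k h2
  obtain ⟨g, hg⟩ := c.pr_surj y
  refine ⟨conj_col D h1 y, is4_conj h2 y, ?_, ?_⟩
  · rw [conj_lon, h3]
    simp only [conj_pow]
  · have e : (fun a => c.τ (y * ρ a * y⁻¹)) = fun a => g * c.τ (ρ a) * g⁻¹ := by
      funext a
      rw [c.τ_conj g _ (h4 a), hg]
    have e' : c.τ (y * ρ k * y⁻¹) = g * c.τ (ρ k) * g⁻¹ := congrFun e k
    rw [e, conj_lon, h5, e', conj_pow]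
    calc g * (c.τ (ρ k) ^ 2 * w) * g⁻¹ = g * c.τ (ρ k) ^ 2 * (w * g⁻¹) := by
          simp only [mul_assoc]
      _ = g * c.τ (ρ k) ^ 2 * (g⁻¹ * w) := by rw [hw g⁻¹]
      _ = g * c.τ (ρ k) ^ 2 * g⁻¹ * w := by simp only [mul_assoc]

/-- A colouring by 4-cycles whose longitude is not trivial takes two values that are neither
equal nor inverse. -/
theorem exists_other (hD : D.IsKnot) {ρ : Fin D.n → S4} (k : Fin D.n) (h : D.IsCol ρ)
    (h2 : Is4 (ρ k)) (h3 : D.lonVal ρ k = ρ k ^ 2) : ∃ a, ρ a ≠ ρ k ∧ ρ a ≠ (ρ k)⁻¹ := by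
  by_contra hcon
  push Not at hcon
  have hpow : ∀ a, ∃ n : ℤ, ρ a = ρ k ^ n := by
    intro a
    by_cases h0 : ρ a = ρ k
    · exact ⟨1, by simpa using h0⟩
    · exact ⟨-1, by simpa using hcon a h0⟩
  have hcomm : ∀ a b, ρ a * ρ b = ρ b * ρ a := by
    intro a b
    obtain ⟨m, hm⟩ := hpow a
    obtain ⟨n, hn⟩ := hpow b
    rw [hm, hn, ← zpow_add, ← zpow_add, add_comm]
  have hconst : ∀ b, ρ b = ρ k := by
    intro b
    obtain ⟨i, rfl⟩ := hD k b
    induction i with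
    | zero => rfl
    | succ i ih =>
      rw [Function.iterate_succ_apply', h, ← ih]
      have h5 : Commute (ρ (D.above (D.next^[i] k))) (ρ (D.next^[i] k)) := hcomm _ _
      have h6 := (h5.zpow_left (-(D.sgn (D.next^[i] k) : ℤ))).eq
      rw [h6, mul_assoc, ← zpow_add]
      simp
  have e : ρ = fun _ => ρ k := funext hconst
  have h7 : D.lonVal ρ k = 1 := by
    conv_lhs => rw [e]
    exact D.lonVal_const hD _ _
  exact h2.2 (h3.symm.trans h7)

theorem dvd_XW [Finite G] (hfree : SpecFree) (hcent : SpecCent) (hD : D.IsKnot) (k : Fin D.n)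
    (w : G) (hw : ∀ g, g * w = w * g) : 24 ∣ (XW c D k w).ncard := by
  let act : MulAction S4 (XW c D k w) :=
    { smul := fun y x => ⟨fun a => y * x.1 a * y⁻¹, XW_conj c D hD k w hw x.2 y⟩
      one_smul := fun x => by
        apply Subtype.ext
        funext a
        change 1 * x.1 a * 1⁻¹ = x.1 a
        simp
      mul_smul := fun y y' x => by
        apply Subtype.ext
        funext a
        change (y * y') * x.1 a * (y * y')⁻¹ = y * (y' * x.1 a * y'⁻¹) * y⁻¹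
        group }
  have h := hfree S4 (XW c D k w) (by
    intro x y hxy
    have h0 : ∀ a, y * x.1 a * y⁻¹ = x.1 a := fun a =>
      congrFun (congrArg Subtype.val hxy) a
    have h1 : ∀ a, y * x.1 a = x.1 a * y := fun a => by
      have := h0 a
      rwa [mul_inv_eq_iff_eq_mul] at this
    obtain ⟨a, ha, ha'⟩ := exists_other D hD k x.2.1 x.2.2.1 x.2.2.2.1
    exact hcent (x.1 k) (x.1 a) y x.2.2.1 (is4_all D x.2.1 hD k x.2.2.1 a) ha ha' (h1 k) (h1 a))
  have h24 : Nat.card S4 = 24 := by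
    rw [Nat.card_eq_fintype_card, Fintype.card_perm, Fintype.card_fin]
    rfl
  rw [h24] at h
  exact h

/-! ### The colourings that kill the slope -/

/-- Colourings with non-trivial determinant that kill the curve of slope `p / q`. -/
def T (k : Fin D.n) (p q : ℤ) : Set (Fin D.n → G) :=
  {σ | D.IsCol σ ∧ c.det (σ k) ≠ 1 ∧ σ k ^ p * D.lonVal σ k ^ q = 1}

/-- Those with a meridian of order two. -/
def T2 (k : Fin D.n) : Set (Fin D.n → G) :=
  {σ | D.IsCol σ ∧ c.det (σ k) ≠ 1 ∧ σ k ^ 2 = 1 ∧ D.lonVal σ k = 1}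

theorem z_even (n : ℤ) : c.z ^ (2 * n) = 1 := by
  rw [zpow_mul, show (2 : ℤ) = ((2 : ℕ) : ℤ) from rfl, zpow_natCast, pow_two, c.z_sq, one_zpow]

theorem z_odd (n : ℤ) : c.z ^ (2 * n + 1) = c.z := by
  rw [zpow_add, z_even, one_mul, zpow_one]

theorem four_zpow {g : G} (h : g ^ 4 = c.z) (m : ℤ) : g ^ (4 * m) = c.z ^ m := by
  rw [zpow_mul, show (4 : ℤ) = ((4 : ℕ) : ℤ) from rfl, zpow_natCast, h]

theorem T_eq (hD : D.IsKnot) (k : Fin D.n) (p q m : ℤ) (hq : q % 2 = 1)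
    (hp : p % 4 = 2) (hm : p + 2 * q = 4 * m) :
    T c D k p q = T2 c D k ∪ U c D k (c.z ^ m) := by
  ext σ
  constructor
  · rintro ⟨h1, h2, h3⟩
    have hcomm := col_comm D h1 k
    have hdet := det_lon c D h1 hD k
    rcases c.ord _ h2 with h4 | h4
    · left
      refine ⟨h1, h2, h4, ?_⟩
      obtain ⟨j, rfl⟩ : ∃ j, p = 2 * j := ⟨p / 2, by omega⟩
      obtain ⟨i, rfl⟩ : ∃ i, q = 2 * i + 1 := ⟨q / 2, by omega⟩
      rw [zpow_mul, show (2 : ℤ) = ((2 : ℕ) : ℤ) from rfl, zpow_natCast, h4, one_zpow,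
        one_mul] at h3
      rcases c.cent_two _ _ h2 h4 hcomm hdet with h5 | h5
      · exact h5
      · rw [h5] at h3
        have := z_odd c i
        push_cast at h3
        rw [this] at h3
        exact absurd h3 c.z_ne
    · right
      refine ⟨h1, h4, ?_⟩
      have hC : Commute (σ k) (D.lonVal σ k) := hcomm
      have bad : D.lonVal σ k ^ 2 = 1 → False := by
        intro h5
        have h6 : (σ k ^ p * D.lonVal σ k ^ q) ^ (2 : ℤ) = 1 := by rw [h3, one_zpow]
        rw [((hC.zpow_left p).zpow_right q).mul_zpow] at h6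
        have h7 : (D.lonVal σ k ^ q) ^ (2 : ℤ) = 1 := by
          rw [← zpow_mul, mul_comm, zpow_mul, show (2 : ℤ) = ((2 : ℕ) : ℤ) from rfl,
            zpow_natCast, h5, one_zpow]
        obtain ⟨j, rfl⟩ : ∃ j, p = 4 * j + 2 := ⟨p / 4, by omega⟩
        rw [h7, mul_one, ← zpow_mul, show (4 * j + 2) * 2 = 4 * (2 * j + 1) by ring,
          four_zpow c h4, z_odd] at h6
        exact c.z_ne h6
      have good : ∀ w0 : G, (∀ g, g * w0 = w0 * g) → w0 * w0 = 1 →
          D.lonVal σ k = σ k ^ 2 * w0 → D.lonVal σ k = σ k ^ 2 * c.z ^ m := by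
        intro w0 hw0 hw1 h5
        have hq' : w0 ^ q = w0 := by
          obtain ⟨i, rfl⟩ : ∃ i, q = 2 * i + 1 := ⟨q / 2, by omega⟩
          rw [zpow_add, zpow_mul, show (2 : ℤ) = ((2 : ℕ) : ℤ) from rfl, zpow_natCast, pow_two,
            hw1, one_zpow, one_mul, zpow_one]
        have h6 := h3
        rw [h5, (show Commute (σ k ^ 2) w0 from hw0 _).mul_zpow, hq', ← zpow_natCast (σ k) 2,
          ← zpow_mul, ← mul_assoc, ← zpow_add, show p + ((2 : ℕ) : ℤ) * q = 4 * m by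
            rw [← hm]; push_cast; ring, four_zpow c h4] at h6
        have h8 : w0 = c.z ^ m := by
          have h9 : c.z ^ m * c.z ^ m = 1 := by
            rw [← zpow_add, ← two_mul, z_even]
          calc w0 = (c.z ^ m * c.z ^ m) * w0 := by rw [h9, one_mul]
            _ = c.z ^ m * (c.z ^ m * w0) := by rw [mul_assoc]
            _ = c.z ^ m := by rw [h6, mul_one]
        rw [h5, h8]
      rcases c.cent_eight _ _ h4 hcomm hdet with h5 | h5 | h5 | h5
      · exact (bad (by rw [h5, one_pow])).elim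
      · exact (bad (by rw [h5, pow_two, c.z_sq])).elim
      · exact good 1 (fun g => by simp) (by simp) (by rw [h5, mul_one])
      · exact good c.z c.z_comm c.z_sq h5
  · rintro (⟨h1, h2, h3, h4⟩ | ⟨h1, h2, h3⟩)
    · refine ⟨h1, h2, ?_⟩
      obtain ⟨j, rfl⟩ : ∃ j, p = 2 * j := ⟨p / 2, by omega⟩
      rw [h4, one_zpow, mul_one, zpow_mul, show (2 : ℤ) = ((2 : ℕ) : ℤ) from rfl, zpow_natCast,
        h3, one_zpow]
    · refine ⟨h1, c.det_of_four _ h2, ?_⟩
      have hzc : Commute (σ k ^ 2) (c.z ^ m) :=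
        (show Commute (σ k ^ 2) c.z from c.z_comm _).zpow_right m
      rw [h3, hzc.mul_zpow, ← zpow_natCast (σ k) 2, ← zpow_mul, ← mul_assoc, ← zpow_add,
        show p + ((2 : ℕ) : ℤ) * q = 4 * m by rw [← hm]; push_cast; ring, four_zpow c h2,
        ← zpow_mul, ← zpow_add]
      obtain ⟨i, rfl⟩ : ∃ i, q = 2 * i + 1 := ⟨q / 2, by omega⟩
      rw [show m + m * (2 * i + 1) = 2 * (m * (i + 1)) by ring, z_even]

theorem T_disj (k : Fin D.n) (w : G) : Disjoint (T2 c D k) (U c D k w) := by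
  rw [Set.disjoint_left]
  rintro σ ⟨-, -, h1, -⟩ ⟨-, h2, -⟩
  apply c.z_ne
  rw [← h2, show (4 : ℕ) = 2 * 2 from rfl, pow_mul, h1, one_pow]

theorem card_T_eq [Finite G] (hD : D.IsKnot) (k : Fin D.n) (p q m : ℤ) (hq : q % 2 = 1)
    (hp : p % 4 = 2) (hm : p + 2 * q = 4 * m) :
    (T c D k p q).ncard = (T2 c D k).ncard + (U c D k (c.z ^ m)).ncard := by
  rw [T_eq c D hD k p q m hq hp hm]
  exact Set.ncard_union_eq (T_disj c D k _) (Set.toFinite _) (Set.toFinite _)

theorem X_ncard [Finite G] (hD : D.IsKnot) (k : Fin D.n) :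
    (X D k).ncard = (XW c D k 1).ncard + (XW c D k c.z).ncard := by
  rw [X_eq c D hD k]
  exact Set.ncard_union_eq (X_disj c D k) (Set.toFinite _) (Set.toFinite _)

/-- The parity obstruction at the level of colourings. -/
theorem dvd_of_card_eq [Finite G] (hfree : SpecFree) (hcent : SpecCent) (hD : D.IsKnot)
    (k : Fin D.n) (p q p' q' : ℤ) (hq : q % 2 = 1) (hp : p % 4 = 2) (hq' : q' % 2 = 1)
    (hp' : p' % 4 = 2) (hdiff : (p + 2 * q - p' - 2 * q') % 8 = 4)
    (h : (T c D k p q).ncard = (T c D k p' q').ncard) : 48 ∣ (X D k).ncard := by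
  obtain ⟨m, hm⟩ : ∃ m, p + 2 * q = 4 * m := ⟨(p + 2 * q) / 4, by omega⟩
  obtain ⟨m', hm'⟩ : ∃ m', p' + 2 * q' = 4 * m' := ⟨(p' + 2 * q') / 4, by omega⟩
  rw [card_T_eq c D hD k p q m hq hp hm, card_T_eq c D hD k p' q' m' hq' hp' hm'] at h
  have h1 : (U c D k (c.z ^ m)).ncard = (U c D k (c.z ^ m')).ncard := by omega
  have key : (XW c D k 1).ncard = (XW c D k c.z).ncard := by
    rcases Int.even_or_odd' m with ⟨j, hj | hj⟩
    · obtain ⟨j', hj'⟩ : ∃ j', m' = 2 * j' + 1 := ⟨m' / 2, by omega⟩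
      rw [hj, hj', z_even, z_odd, card_U c D hD k _ (Or.inl rfl),
        card_U c D hD k _ (Or.inr rfl)] at h1
      omega
    · obtain ⟨j', hj'⟩ : ∃ j', m' = 2 * j' := ⟨m' / 2, by omega⟩
      rw [hj, hj', z_even, z_odd, card_U c D hD k _ (Or.inl rfl),
        card_U c D hD k _ (Or.inr rfl)] at h1
      omega
  rw [X_ncard c D hD k, ← key]
  obtain ⟨e, he⟩ := dvd_XW c D hfree hcent hD k 1 (fun g => by simp)
  rw [he]
  exact ⟨e, by ring⟩

include c in
theorem dvd_X [Finite G] (hfree : SpecFree) (hcent : SpecCent) (hD : D.IsKnot)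
    (k : Fin D.n) : 24 ∣ (X D k).ncard := by
  rw [X_ncard c D hD k]
  exact Dvd.dvd.add (dvd_XW c D hfree hcent hD k 1 (fun g => by simp))
    (dvd_XW c D hfree hcent hD k c.z c.z_comm)

end Vale.Agent.P258.R2.H863
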