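import Vale.Agent.P258.R2.H863.Spec5
import Vale.Agent.P258.R2.H863.Main

set_option linter.all false

namespace Vale.Agent.P258.R2.H863.Five

open Vale.Agent.P258 Vale.Agent.P258.R2.H863

variable {G : Type} [Group G] (c : Cover5 G) (D : Diagram)

/-- Homomorphisms with meridian a 4-cycle and longitude its square. -/
def X (k : Fin D.n) : Set (Fin D.n → Equiv.Perm (Fin 5)) :=
  {ρ | D.IsCol ρ ∧ Is45 (ρ k) ∧ D.lonVal ρ k = ρ k ^ 2}

/-- Those with lift of type `w`. -/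
def XW (k : Fin D.n) (w : G) : Set (Fin D.n → Equiv.Perm (Fin 5)) :=
  {ρ | D.IsCol ρ ∧ Is45 (ρ k) ∧ D.lonVal ρ k = ρ k ^ 2 ∧
    D.lonVal (fun a => c.τ (ρ a)) k = c.τ (ρ k) ^ 2 * w}

/-- Colourings with `g ^ 4 = z`, longitude `g ^ 2 * w`. -/
def U (k : Fin D.n) (w : G) : Set (Fin D.n → G) :=
  {σ | D.IsCol σ ∧ σ k ^ 4 = c.z ∧ D.lonVal σ k = σ k ^ 2 * w}

theorem det_const {σ : Fin D.n → G} (h : D.IsCol σ) (hD : D.IsKnot) (k b : Fin D.n) :
    c.det (σ b) = c.det (σ k) :=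
  col_const D (χ := fun a => c.det (σ a)) (Diagram.IsCol.map D h c.det) hD k b

theorem det_lon {σ : Fin D.n → G} (h : D.IsCol σ) (hD : D.IsKnot) (k : Fin D.n) :
    c.det (D.lonVal σ k) = 1 := by
  rw [← D.lonVal_map σ c.det k]
  have : (fun b => c.det (σ b)) = fun _ => c.det (σ k) := by
    funext b
    exact det_const c D h hD k b
  rw [this, D.lonVal_const hD]

theorem is4_next {ρ : Fin D.n → Equiv.Perm (Fin 5)} (h : D.IsCol ρ) (a : Fin D.n)
    (ha : Is45 (ρ a)) : Is45 (ρ (D.next a)) := by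
  rw [h a]
  have h1 : ρ (D.above a) ^ (-(D.sgn a : ℤ)) * ρ a * ρ (D.above a) ^ (D.sgn a : ℤ) =
      (ρ (D.above a) ^ (-(D.sgn a : ℤ))) * ρ a * (ρ (D.above a) ^ (-(D.sgn a : ℤ)))⁻¹ := by
    group
  rw [h1]
  generalize ρ (D.above a) ^ (-(D.sgn a : ℤ)) = x
  unfold Is45
  rw [conj_pow, conj_pow]
  refine ⟨by rw [ha.1]; group, fun h2 => ha.2 ?_⟩
  have : ρ a ^ 2 = x⁻¹ * (x * ρ a ^ 2 * x⁻¹) * x := by group
  rw [this, h2]; group

theorem is4_all {ρ : Fin D.n → Equiv.Perm (Fin 5)} (h : D.IsCol ρ) (hD : D.IsKnot) (k : Fin D.n)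
    (hk : Is45 (ρ k)) (b : Fin D.n) : Is45 (ρ b) := by
  obtain ⟨i, rfl⟩ := hD k b
  induction i with
  | zero => exact hk
  | succ i ih => rw [Function.iterate_succ_apply']; exact is4_next D h _ ih

/-- The lift of a colouring by 4-cycles is a colouring. -/
theorem lift_col {ρ : Fin D.n → Equiv.Perm (Fin 5)} (h : D.IsCol ρ) (h4 : ∀ b, Is45 (ρ b)) :
    D.IsCol (fun a => c.τ (ρ a)) := by
  intro a
  have h1 : ∀ (x : G) (n : ℤ), x ^ (-n) = (x ^ (-n)) := fun _ _ => rfl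
  have h2 := c.τ_conj (c.τ (ρ (D.above a)) ^ (-(D.sgn a : ℤ))) (ρ a) (h4 a)
  rw [map_zpow, c.pr_τ _ (h4 _)] at h2
  have h3 : ρ (D.next a) = ρ (D.above a) ^ (-(D.sgn a : ℤ)) * ρ a *
      (ρ (D.above a) ^ (-(D.sgn a : ℤ)))⁻¹ := by
    rw [h a, zpow_neg, inv_inv]
  simp only
  rw [h3, ← h2, zpow_neg, inv_inv]

theorem lift_four {d : Equiv.Perm (Fin 5)} (h : Is45 d) : c.τ d ^ 4 = c.z := by
  rw [c.four, c.pr_τ _ h]; exact h

theorem pr_lon {ρ : Fin D.n → Equiv.Perm (Fin 5)} (h4 : ∀ b, Is45 (ρ b)) (k : Fin D.n) :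
    c.pr (D.lonVal (fun a => c.τ (ρ a)) k) = D.lonVal ρ k := by
  rw [← D.lonVal_map]
  congr 1
  funext b
  exact c.pr_τ _ (h4 b)

theorem X_eq (hD : D.IsKnot) (k : Fin D.n) : X D k = XW c D k 1 ∪ XW c D k c.z := by
  ext ρ
  constructor
  · rintro ⟨h1, h2, h3⟩
    have h4 := is4_all D h1 hD k h2
    have h5 : c.pr (c.τ (ρ k) ^ 2) = c.pr (D.lonVal (fun a => c.τ (ρ a)) k) := by
      rw [map_pow, c.pr_τ _ h2, pr_lon c D h4, h3]
    rcases c.pr_inj _ _ h5 with h6 | h6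
    · left; exact ⟨h1, h2, h3, by rw [h6, mul_one]⟩
    · right; exact ⟨h1, h2, h3, h6⟩
  · rintro (⟨h1, h2, h3, -⟩ | ⟨h1, h2, h3, -⟩) <;> exact ⟨h1, h2, h3⟩

theorem X_disj (k : Fin D.n) : Disjoint (XW c D k 1) (XW c D k c.z) := by
  rw [Set.disjoint_left]
  rintro ρ ⟨-, -, -, h1⟩ ⟨-, -, -, h2⟩
  apply c.z_ne
  have := h2.symm.trans h1
  exact mul_left_cancel this

theorem z_inv_pow (b : Bool) : ∀ g : G, g * (if b then c.z else 1) = (if b then c.z else 1) * g := by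
  intro g
  cases b
  · simp
  · simpa using c.z_comm g

/-- Each colouring by 4-cycles has exactly two lifts. -/
theorem card_U [Finite G] (hD : D.IsKnot) (k : Fin D.n) (w : G) (hw : w = 1 ∨ w = c.z) :
    (U c D k w).ncard = (XW c D k w).ncard * 2 := by
  have hprw : c.pr w = 1 := by
    rcases hw with rfl | rfl
    · exact map_one _
    · exact c.pr_z
  let Z : Bool → G := fun b => if b then c.z else 1
  have hZc : ∀ b (g : G), g * Z b = Z b * g := fun b g => z_inv_pow c b g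
  have hZpr : ∀ b, c.pr (Z b) = 1 := by
    intro b; cases b
    · simp [Z]
    · simpa [Z] using c.pr_z
  have hZsq : ∀ b, Z b ^ 2 = 1 := by
    intro b; cases b
    · simp [Z]
    · simpa [Z, pow_two] using c.z_sq
  have hmul : ∀ (g : G) b (n : ℕ), (g * Z b) ^ n = g ^ n * Z b ^ n := fun g b n =>
    (show Commute g (Z b) from hZc b g).mul_pow n
  have hwell : ∀ (ρ : Fin D.n → Equiv.Perm (Fin 5)) (b : Bool), ρ ∈ XW c D k w →
      (fun a => c.τ (ρ a) * Z b) ∈ U c D k w := by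
    rintro ρ b ⟨h1, h2, h3, h5⟩
    have h4 := is4_all D h1 hD k h2
    have hcol := lift_col c D h1 h4
    refine ⟨col_central D hcol (Z b) (hZc b), ?_, ?_⟩
    · simp only
      rw [hmul, lift_four c h2, show (4 : ℕ) = 2 * 2 from rfl, pow_mul, hZsq, one_pow, mul_one]
    · rw [lon_central D hD k (Z b) (hZc b), h5]
      simp only
      rw [hmul, hZsq, mul_one]
  have hbij : Function.Bijective (fun x : XW c D k w × Bool =>
      (⟨fun a => c.τ (x.1.1 a) * Z x.2, hwell x.1.1 x.2 x.1.2⟩ : U c D k w)) := by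
    constructor
    · rintro ⟨⟨ρ, hρ⟩, b⟩ ⟨⟨ρ', hρ'⟩, b'⟩ h
      have h0 : ∀ a, c.τ (ρ a) * Z b = c.τ (ρ' a) * Z b' := fun a =>
        congrFun (congrArg Subtype.val h) a
      have e1 : ρ = ρ' := by
        funext a
        have := congrArg c.pr (h0 a)
        rw [map_mul, map_mul, hZpr, hZpr, mul_one, mul_one,
          c.pr_τ _ (is4_all D hρ.1 hD k hρ.2.1 a), c.pr_τ _ (is4_all D hρ'.1 hD k hρ'.2.1 a)] at this
        exact this
      subst e1
      have e2 : Z b = Z b' := mul_left_cancel (h0 k)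
      have e3 : b = b' := by
        cases b <;> cases b' <;> simp [Z] at e2 ⊢
        · exact c.z_ne e2.symm
        · exact c.z_ne e2
      rw [e3]
    · rintro ⟨σ, h1, h2, h3⟩
      have hρ : D.IsCol (fun a => c.pr (σ a)) := Diagram.IsCol.map D h1 c.pr
      have hk : Is45 (c.pr (σ k)) := (c.four _).1 h2
      have h4 := is4_all D hρ hD k hk
      have hcol := lift_col c D hρ h4
      have hδ : ∀ a, ∃ b : Bool, σ a = c.τ (c.pr (σ a)) * Z b := by
        intro a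
        rcases c.pr_inj (c.τ (c.pr (σ a))) (σ a) (c.pr_τ _ (h4 a)) with h5 | h5
        · exact ⟨false, by simpa [Z] using h5⟩
        · exact ⟨true, by simpa [Z] using h5⟩
      choose δ hδ' using hδ
      have hconst := diff_const D h1 hcol hD k (fun a => Z (δ a)) hδ' (fun a g => hZc _ g)
      have hσ : σ = fun a => c.τ (c.pr (σ a)) * Z (δ k) := by
        funext a
        have := hδ' a
        rw [hconst a] at this
        exact this
      have hlon : D.lonVal (fun a => c.τ (c.pr (σ a))) k = D.lonVal σ k := by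
        conv_rhs => rw [hσ]
        rw [lon_central D hD k (Z (δ k)) (hZc (δ k))]
      refine ⟨⟨⟨fun a => c.pr (σ a), hρ, hk, ?_, ?_⟩, δ k⟩, ?_⟩
      · rw [D.lonVal_map, h3, map_mul, hprw, mul_one, map_pow]
      · rw [hlon, h3]
        have : σ k = c.τ (c.pr (σ k)) * Z (δ k) := hδ' k
        conv_lhs => rw [this, hmul, hZsq, mul_one]
      · apply Subtype.ext
        exact hσ.symm
  have := Nat.card_eq_of_bijective _ hbij
  rw [Nat.card_prod] at this
  simpa [Set.ncard] using this.symm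

/-! ### The free action of `S₄` -/

abbrev S5 := Equiv.Perm (Fin 5)

theorem conj_col {H : Type*} [Group H] {ρ : Fin D.n → H} (h : D.IsCol ρ) (y : H) :
    D.IsCol (fun a => y * ρ a * y⁻¹) :=
  Diagram.IsCol.map D h (MulAut.conj y).toMonoidHom

theorem conj_lon {H : Type*} [Group H] (ρ : Fin D.n → H) (y : H) (k : Fin D.n) :
    D.lonVal (fun a => y * ρ a * y⁻¹) k = y * D.lonVal ρ k * y⁻¹ :=
  D.lonVal_map ρ (MulAut.conj y).toMonoidHom k

theorem is4_conj {d : S5} (h : Is45 d) (y : S5) : Is45 (y * d * y⁻¹) := by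
  unfold Is45
  rw [conj_pow, conj_pow]
  refine ⟨by rw [h.1]; group, fun h2 => h.2 ?_⟩
  have : d ^ 2 = y⁻¹ * (y * d ^ 2 * y⁻¹) * y := by group
  rw [this, h2]; group

theorem XW_conj (hD : D.IsKnot) (k : Fin D.n) (w : G) (hw : ∀ g, g * w = w * g)
    {ρ : Fin D.n → S5} (h : ρ ∈ XW c D k w) (y : S5) :
    (fun a => y * ρ a * y⁻¹) ∈ XW c D k w := by
  obtain ⟨h1, h2, h3, h5⟩ := h
  have h4 := is4_all D h1 hD k h2
  obtain ⟨g, hg⟩ := c.pr_surj y
  refine ⟨conj_col D h1 y, is4_conj h2 y, ?_, ?_⟩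
  · rw [conj_lon, h3]
    simp only [conj_pow]
  · have e : (fun a => c.τ (y * ρ a * y⁻¹)) = fun a => g * c.τ (ρ a) * g⁻¹ := by
      funext a
      rw [c.τ_conj g _ (h4 a), hg]
    have e' : c.τ (y * ρ k * y⁻¹) = g * c.τ (ρ k) * g⁻¹ := congrFun e k
    rw [e, conj_lon, h5, e', conj_pow]
    calc g * (c.τ (ρ k) ^ 2 * w) * g⁻¹ = g * c.τ (ρ k) ^ 2 * (w * g⁻¹) := by
          simp only [mul_assoc]
      _ = g * c.τ (ρ k) ^ 2 * (g⁻¹ * w) := by rw [hw g⁻¹]
      _ = g * c.τ (ρ k) ^ 2 * g⁻¹ * w := by simp only [mul_assoc]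

/-- A colouring by 4-cycles whose longitude is not trivial takes two values that are neither
equal nor inverse. -/
theorem exists_other (hD : D.IsKnot) {ρ : Fin D.n → S5} (k : Fin D.n) (h : D.IsCol ρ)
    (h2 : Is45 (ρ k)) (h3 : D.lonVal ρ k = ρ k ^ 2) : ∃ a, ρ a ≠ ρ k ∧ ρ a ≠ (ρ k)⁻¹ := by
  by_contra hcon
  push Not at hcon
  have hpow : ∀ a, ∃ n : ℤ, ρ a = ρ k ^ n := by
    intro a
    by_cases h0 : ρ a = ρ k
    · exact ⟨1, by simpa using h0⟩
    · exact ⟨-1, by simpa using hcon a h0⟩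
  have hcomm : ∀ a b, ρ a * ρ b = ρ b * ρ a := by
    intro a b
    obtain ⟨m, hm⟩ := hpow a
    obtain ⟨n, hn⟩ := hpow b
    rw [hm, hn, ← zpow_add, ← zpow_add, add_comm]
  have hconst : ∀ b, ρ b = ρ k := by
    intro b
    obtain ⟨i, rfl⟩ := hD k b
    induction i with
    | zero => rfl
    | succ i ih =>
      rw [Function.iterate_succ_apply', h, ← ih]
      have h5 : Commute (ρ (D.above (D.next^[i] k))) (ρ (D.next^[i] k)) := hcomm _ _
      have h6 := (h5.zpow_left (-(D.sgn (D.next^[i] k) : ℤ))).eq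
      rw [h6, mul_assoc, ← zpow_add]
      simp
  have e : ρ = fun _ => ρ k := funext hconst
  have h7 : D.lonVal ρ k = 1 := by
    conv_lhs => rw [e]
    exact D.lonVal_const hD _ _
  exact h2.2 (h3.symm.trans h7)

theorem dvd_XW [Finite G] (hfree : SpecFree) (hcent : SpecCent5) (hD : D.IsKnot) (k : Fin D.n)
    (w : G) (hw : ∀ g, g * w = w * g) : 120 ∣ (XW c D k w).ncard := by
  let act : MulAction S5 (XW c D k w) :=
    { smul := fun y x => ⟨fun a => y * x.1 a * y⁻¹, XW_conj c D hD k w hw x.2 y⟩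
      one_smul := fun x => by
        apply Subtype.ext
        funext a
        change 1 * x.1 a * 1⁻¹ = x.1 a
        simp
      mul_smul := fun y y' x => by
        apply Subtype.ext
        funext a
        change (y * y') * x.1 a * (y * y')⁻¹ = y * (y' * x.1 a * y'⁻¹) * y⁻¹
        group }
  have h := hfree S5 (XW c D k w) (by
    intro x y hxy
    have h0 : ∀ a, y * x.1 a * y⁻¹ = x.1 a := fun a =>
      congrFun (congrArg Subtype.val hxy) a
    have h1 : ∀ a, y * x.1 a = x.1 a * y := fun a => by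
      have := h0 a
      rwa [mul_inv_eq_iff_eq_mul] at this
    obtain ⟨a, ha, ha'⟩ := exists_other D hD k x.2.1 x.2.2.1 x.2.2.2.1
    exact hcent (x.1 k) (x.1 a) y x.2.2.1 (is4_all D x.2.1 hD k x.2.2.1 a) ha ha' (h1 k) (h1 a))
  have h24 : Nat.card S5 = 120 := by
    rw [Nat.card_eq_fintype_card, Fintype.card_perm, Fintype.card_fin]
    rfl
  rw [h24] at h
  exact h

/-! ### The colourings that kill the slope -/

/-- Colourings with non-trivial determinant that kill the curve of slope `p`. -/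
def T (k : Fin D.n) (p : ℤ) : Set (Fin D.n → G) :=
  {σ | D.IsCol σ ∧ c.det (σ k) ≠ 1 ∧ σ k ^ p * D.lonVal σ k ^ (1 : ℤ) = 1}

/-- Those with a meridian of order two. -/
def T2 (k : Fin D.n) : Set (Fin D.n → G) :=
  {σ | D.IsCol σ ∧ c.det (σ k) ≠ 1 ∧ σ k ^ 2 = 1 ∧ D.lonVal σ k = 1}

/-- No odd meridian of order not dividing four has its square or its inverse square as
longitude. -/
def NoSix (k : Fin D.n) : Prop :=
  ∀ ρ : Fin D.n → Equiv.Perm (Fin 5), D.IsCol ρ → Equiv.Perm.sign (ρ k) = -1 → ρ k ^ 4 ≠ 1 →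
    D.lonVal ρ k ≠ ρ k ^ 2 ∧ D.lonVal ρ k ≠ (ρ k ^ 2)⁻¹

theorem four_zpow {g : G} (h : g ^ 4 = c.z) (m : ℤ) : g ^ (4 * m) = c.z ^ m := by
  rw [zpow_mul, show (4 : ℤ) = ((4 : ℕ) : ℤ) from rfl, zpow_natCast, h]

theorem T_eq (hD : D.IsKnot) (k : Fin D.n) (hno : NoSix D k) (p : ℤ) (m : ℕ) (hm1 : m ≤ 1)
    (hm : p + 2 = 4 * m) :
    T c D k p = T2 c D k ∪ U c D k (c.z ^ m) := by
  have hp : p = 2 ∧ m = 1 ∨ p = -2 ∧ m = 0 := by omega
  have hzz : c.z ^ m * c.z ^ m = 1 := by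
    rw [← pow_add, ← two_mul, pow_mul, pow_two, c.z_sq, one_pow]
  ext σ
  constructor
  · rintro ⟨h1, h2, h3⟩
    have hcomm := col_comm D h1 k
    have hdet := det_lon c D h1 hD k
    rw [zpow_one] at h3
    rcases c.ord _ h2 with h4 | h4 | h4
    · left
      refine ⟨h1, h2, h4, ?_⟩
      have : σ k ^ p = 1 := by
        rcases hp with ⟨rfl, -⟩ | ⟨rfl, -⟩
        · rw [show (2 : ℤ) = ((2 : ℕ) : ℤ) from rfl, zpow_natCast, h4]
        · rw [zpow_neg, show (2 : ℤ) = ((2 : ℕ) : ℤ) from rfl, zpow_natCast, h4, inv_one]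
      rwa [this, one_mul] at h3
    · right
      refine ⟨h1, h4, ?_⟩
      have h5 : D.lonVal σ k = σ k ^ (-p) := by
        rw [zpow_neg]
        exact (inv_eq_of_mul_eq_one_right h3).symm
      have h6 : σ k ^ (-p) = σ k ^ 2 * c.z ^ m := by
        have h8 : c.z ^ m = σ k ^ (4 * (m : ℤ)) := by
          rw [four_zpow c h4, zpow_natCast]
        have h9 : σ k ^ (4 * (m : ℤ)) = σ k ^ (-(4 * (m : ℤ))) := by
          rw [zpow_neg, ← h8]
          exact eq_inv_of_mul_eq_one_left hzz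
        rw [h8, h9, ← zpow_natCast (σ k) 2, ← zpow_add, ← hm]
        congr 1
        push_cast
        ring
      rw [h5, h6]
    · exfalso
      have hρ : D.IsCol (fun a => c.pr (σ a)) := Diagram.IsCol.map D h1 c.pr
      have hs : Equiv.Perm.sign (c.pr (σ k)) = -1 := by
        rw [c.det_pr]
        exact (Int.units_eq_one_or _).resolve_left h2
      obtain ⟨n1, n2⟩ := hno _ hρ hs h4
      have h5 : (c.pr (σ k)) ^ p * D.lonVal (fun a => c.pr (σ a)) k = 1 := by
        rw [D.lonVal_map, ← map_zpow, ← map_mul, h3, map_one]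
      rcases hp with ⟨rfl, -⟩ | ⟨rfl, -⟩
      · apply n2
        rw [show (2 : ℤ) = ((2 : ℕ) : ℤ) from rfl, zpow_natCast] at h5
        exact (inv_eq_of_mul_eq_one_right h5).symm
      · apply n1
        rw [zpow_neg, show (2 : ℤ) = ((2 : ℕ) : ℤ) from rfl, zpow_natCast] at h5
        have := (inv_eq_of_mul_eq_one_right h5).symm
        rwa [inv_inv] at this
  · rintro (⟨h1, h2, h3, h4⟩ | ⟨h1, h2, h3⟩)
    · refine ⟨h1, h2, ?_⟩
      rw [h4, one_zpow, mul_one]
      rcases hp with ⟨rfl, -⟩ | ⟨rfl, -⟩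
      · rw [show (2 : ℤ) = ((2 : ℕ) : ℤ) from rfl, zpow_natCast, h3]
      · rw [zpow_neg, show (2 : ℤ) = ((2 : ℕ) : ℤ) from rfl, zpow_natCast, h3, inv_one]
    · refine ⟨h1, c.det_of_four _ h2, ?_⟩
      rw [h3, zpow_one, ← mul_assoc, ← zpow_natCast (σ k) 2, ← zpow_add,
        show p + ((2 : ℕ) : ℤ) = 4 * (m : ℤ) by rw [← hm]; push_cast; ring, four_zpow c h2,
        zpow_natCast, hzz]

theorem T_disj (k : Fin D.n) (w : G) : Disjoint (T2 c D k) (U c D k w) := by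
  rw [Set.disjoint_left]
  rintro σ ⟨-, -, h1, -⟩ ⟨-, h2, -⟩
  apply c.z_ne
  rw [← h2, show (4 : ℕ) = 2 * 2 from rfl, pow_mul, h1, one_pow]

theorem card_T_eq [Finite G] (hD : D.IsKnot) (k : Fin D.n) (hno : NoSix D k) (p : ℤ) (m : ℕ)
    (hm1 : m ≤ 1) (hm : p + 2 = 4 * m) :
    (T c D k p).ncard = (T2 c D k).ncard + (U c D k (c.z ^ m)).ncard := by
  rw [T_eq c D hD k hno p m hm1 hm]
  exact Set.ncard_union_eq (T_disj c D k _) (Set.toFinite _) (Set.toFinite _)

theorem X_ncard [Finite G] (hD : D.IsKnot) (k : Fin D.n) :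
    (X D k).ncard = (XW c D k 1).ncard + (XW c D k c.z).ncard := by
  rw [X_eq c D hD k]
  exact Set.ncard_union_eq (X_disj c D k) (Set.toFinite _) (Set.toFinite _)

/-- The parity obstruction at the level of colourings. -/
theorem dvd_of_card_eq [Finite G] (hfree : SpecFree) (hcent : SpecCent5) (hD : D.IsKnot)
    (k : Fin D.n) (hno : NoSix D k)
    (h : (T c D k 2).ncard = (T c D k (-2)).ncard) : 240 ∣ (X D k).ncard := by
  rw [card_T_eq c D hD k hno 2 1 (by norm_num) (by norm_num),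
    card_T_eq c D hD k hno (-2) 0 (by norm_num) (by norm_num), pow_one, pow_zero,
    card_U c D hD k _ (Or.inl rfl), card_U c D hD k _ (Or.inr rfl)] at h
  have key : (XW c D k 1).ncard = (XW c D k c.z).ncard := by omega
  rw [X_ncard c D hD k, ← key]
  obtain ⟨e, he⟩ := dvd_XW c D hfree hcent hD k 1 (fun g => by simp)
  rw [he]
  exact ⟨e, by ring⟩

include c in
theorem dvd_X [Finite G] (hfree : SpecFree) (hcent : SpecCent5) (hD : D.IsKnot)
    (k : Fin D.n) : 120 ∣ (X D k).ncard := by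
  rw [X_ncard c D hD k]
  exact Dvd.dvd.add (dvd_XW c D hfree hcent hD k 1 (fun g => by simp))
    (dvd_XW c D hfree hcent hD k c.z c.z_comm)

end Vale.Agent.P258.R2.H863.Five
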