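import Vale.Agent.P258.H78.Transfer

/-!
Specification of the double cover `GL(2,3) → S₄` used for the parity obstruction.
-/

namespace Vale.Agent.P258.R2.H863

/-- `c` is a 4-cycle of `S₄`. -/
def Is4 (c : Equiv.Perm (Fin 4)) : Prop := c ^ 4 = 1 ∧ c ^ 2 ≠ 1

/-- The properties of the double cover `GL(2,3) → S₄` (central element `z = -1`, determinant
`det`, lift `τ` of the 4-cycles) that are used. -/
structure Cover (G : Type) [Group G] where
  z : G
  det : G →* ℤˣ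
  pr : G →* Equiv.Perm (Fin 4)
  τ : Equiv.Perm (Fin 4) → G
  z_ne : z ≠ 1
  z_comm : ∀ g, g * z = z * g
  z_sq : z * z = 1
  pr_z : pr z = 1
  det_z : det z = 1
  pr_inj : ∀ g h, pr g = pr h → h = g ∨ h = g * z
  pr_surj : ∀ y, ∃ g, pr g = y
  ord : ∀ g, det g ≠ 1 → g ^ 2 = 1 ∨ g ^ 4 = z
  cent_two : ∀ g h, det g ≠ 1 → g ^ 2 = 1 → g * h = h * g → det h = 1 → h = 1 ∨ h = z
  cent_eight : ∀ g h, g ^ 4 = z → g * h = h * g → det h = 1 →
    h = 1 ∨ h = z ∨ h = g ^ 2 ∨ h = g ^ 2 * z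
  four : ∀ g, g ^ 4 = z ↔ Is4 (pr g)
  det_of_four : ∀ g, g ^ 4 = z → det g ≠ 1
  pr_τ : ∀ c, Is4 c → pr (τ c) = c
  τ_conj : ∀ g c, Is4 c → g * τ c * g⁻¹ = τ (pr g * c * (pr g)⁻¹)
  exp : ∀ g : G, g ^ 24 = 1

/-- Row A. -/
def SpecCover : Prop := ∃ (G : Type) (_ : Group G) (_ : Finite G), Nonempty (Cover G)

/-- Row B1: a finite group acting freely. -/
def SpecFree : Prop := ∀ (H X : Type) [Group H] [Finite H] [Finite X] [MulAction H X],
  (∀ (x : X) (h : H), h • x = x → h = 1) → Nat.card H ∣ Nat.card X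

/-- Row B2: two 4-cycles that are different and not inverse have trivial centralizer. -/
def SpecCent : Prop := ∀ c d y : Equiv.Perm (Fin 4), Is4 c → Is4 d → d ≠ c → d ≠ c⁻¹ →
  y * c = c * y → y * d = d * y → y = 1

/-- Row B3: homomorphisms to `G` with non-trivial determinant = all minus those to the kernel;
for finitely generated `Γ`. -/
def SpecCount : Prop := ∀ (Γ G : Type) [Group Γ] [Group G] [Finite G] (det : G →* ℤˣ)
  [Finite (Γ →* G)], Nat.card (Γ →* G) = Nat.card {f : Γ →* G // ∃ x, det (f x) ≠ 1} +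
    Nat.card (Γ →* det.ker)

end Vale.Agent.P258.R2.H863
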