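import Vale.Agent.P258.R2.H863.Spec

/-!
Specification of the double cover `2.S₅ → S₅` in which transpositions lift to involutions.
-/

namespace Vale.Agent.P258.R2.H863

/-- `c` is a 4-cycle of `S₅`. -/
def Is45 (c : Equiv.Perm (Fin 5)) : Prop := c ^ 4 = 1 ∧ c ^ 2 ≠ 1

/-- The properties of the double cover `2.S₅ → S₅` (central element `z`, sign `det`, lift `τ` of
the 4-cycles) that are used. -/
structure Cover5 (G : Type) [Group G] where
  z : G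
  det : G →* ℤˣ
  pr : G →* Equiv.Perm (Fin 5)
  τ : Equiv.Perm (Fin 5) → G
  z_ne : z ≠ 1
  z_comm : ∀ g, g * z = z * g
  z_sq : z * z = 1
  pr_z : pr z = 1
  det_z : det z = 1
  pr_inj : ∀ g h, pr g = pr h → h = g ∨ h = g * z
  pr_surj : ∀ y, ∃ g, pr g = y
  ord : ∀ g, det g ≠ 1 → g ^ 2 = 1 ∨ g ^ 4 = z ∨ (pr g) ^ 4 ≠ 1
  cent_eight : ∀ g h, g ^ 4 = z → g * h = h * g → det h = 1 →
    h = 1 ∨ h = z ∨ h = g ^ 2 ∨ h = g ^ 2 * z
  four : ∀ g, g ^ 4 = z ↔ Is45 (pr g)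
  det_of_four : ∀ g, g ^ 4 = z → det g ≠ 1
  det_pr : ∀ g, Equiv.Perm.sign (pr g) = det g
  pr_τ : ∀ c, Is45 c → pr (τ c) = c
  τ_conj : ∀ g c, Is45 c → g * τ c * g⁻¹ = τ (pr g * c * (pr g)⁻¹)
  exp : ∀ g : G, g ^ 120 = 1

/-- Row A5. -/
def SpecCover5 : Prop := ∃ (G : Type) (_ : Group G) (_ : Finite G), Nonempty (Cover5 G)

/-- Row B5: two 4-cycles of `S₅` that are different and not inverse have trivial centralizer. -/
def SpecCent5 : Prop := ∀ c d y : Equiv.Perm (Fin 5), Is45 c → Is45 d → d ≠ c → d ≠ c⁻¹ →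
  y * c = c * y → y * d = d * y → y = 1

end Vale.Agent.P258.R2.H863
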