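import Vale.Agent.P258.R2.H863.Final

/-!
A knot with 13 crossings and Alexander polynomial one to which the criterion applies: the closure
of the 4-braid `3, -1, 3, 2, -1, 2, -1, -1, 3, -2, 3, 3, -2`.
-/

namespace Vale.Agent.P258.R2.H863

open Vale.Agent.P258

/-- The closure of the 4-braid `3, -1, 3, 2, -1, 2, -1, -1, 3, -2, 3, 3, -2`, a knot diagram with 13
crossings. -/
def knot13 : Diagram where
  n := 13
  next a := Fin.ofNat 13 (a.val + 1)
  above a := Fin.ofNat 13 ([5, 6, 0, 9, 7, 12, 4, 10, 6, 5, 8, 1, 2].getD a.val 0)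
  sgn a := if a.val ∈ [0, 2, 3, 5, 9, 12] then -1 else 1

/-- The arc `0`. -/
def arc0 : Fin knot13.n := Fin.ofNat 13 0

/-- Row EX. -/
def SpecEx : Prop := knot13.IsKnot ∧ ¬ 240 ∣ Nat.card (Reps 5 knot13 arc0) ∧
  NoOrderSix knot13 arc0

end Vale.Agent.P258.R2.H863
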